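import Vale.Agent.P331.FSt

/-! P331: basic facts on expectations over random sets. -/

namespace Vale.Agent.P331.Full

open Finset

variable {α : Type} [Fintype α] [DecidableEq α] {r : Finset α → ℕ}

namespace BE_

theorem master (u v : α → ℝ) :
    ∑ A : Finset α, ∏ e, (if e ∈ A then u e else v e) = ∏ e, (u e + v e) := by
  rw [Fintype.prod_add]
  refine sum_congr rfl fun A _ => ?_
  rw [prod_ite]
  congr 2
  · ext e
    simp
  · ext e
    simp

theorem wt_nonneg {p : ℝ} (h0 : 0 ≤ p) (h1 : p ≤ 1) (A : Finset α) : 0 ≤ wt p A :=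
  prod_nonneg fun e _ => by
    split_ifs
    · exact h0
    · linarith

theorem wt_sum (p : ℝ) : ∑ A : Finset α, wt p A = 1 := by
  unfold wt
  rw [master (fun _ => p) fun _ => 1 - p]
  simp

theorem const (p c : ℝ) : Ex p (fun _ : Finset α => c) = c := by
  rw [Ex, ← sum_mul, wt_sum, one_mul]

theorem add (p : ℝ) (f g : Finset α → ℝ) : Ex p (fun A => f A + g A) = Ex p f + Ex p g := by
  simp only [Ex, mul_add, sum_add_distrib]

theorem sub (p : ℝ) (f g : Finset α → ℝ) : Ex p (fun A => f A - g A) = Ex p f - Ex p g := by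
  simp only [Ex, mul_sub, sum_sub_distrib]

theorem mul (p c : ℝ) (f : Finset α → ℝ) : Ex p (fun A => c * f A) = c * Ex p f := by
  simp only [Ex, mul_sum]
  exact sum_congr rfl fun A _ => by ring

theorem sum {ι : Type} (p : ℝ) (s : Finset ι) (f : ι → Finset α → ℝ) :
    Ex p (fun A => ∑ i ∈ s, f i A) = ∑ i ∈ s, Ex p (f i) := by
  simp only [Ex, mul_sum]
  exact sum_comm

theorem mono {p : ℝ} (h0 : 0 ≤ p) (h1 : p ≤ 1) {f g : Finset α → ℝ} (h : ∀ A, f A ≤ g A) :
    Ex p f ≤ Ex p g :=
  sum_le_sum fun A _ => mul_le_mul_of_nonneg_left (h A) (wt_nonneg h0 h1 A)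

theorem comm (p q : ℝ) (f : Finset α → Finset α → ℝ) :
    Ex p (fun A => Ex q fun B => f A B) = Ex q fun B => Ex p fun A => f A B := by
  simp only [Ex, mul_sum]
  rw [sum_comm]
  exact sum_congr rfl fun B _ => sum_congr rfl fun A _ => by ring

/-- Exchange of the parts inside `G`. -/
def swp (G : Finset α) (z : Finset α × Finset α) : Finset α × Finset α :=
  ((z.1 \ G) ∪ (z.2 ∩ G), (z.2 \ G) ∪ (z.1 ∩ G))

omit [Fintype α] in
theorem swp_inv (G : Finset α) : Function.Involutive (swp G) := by
  rintro ⟨A, B⟩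
  refine Prod.ext ?_ ?_ <;> ext e <;> by_cases h : e ∈ G <;> simp [swp, h]

theorem wt_swp (p : ℝ) (G : Finset α) (z : Finset α × Finset α) :
    wt p (swp G z).1 * wt p (swp G z).2 = wt p z.1 * wt p z.2 := by
  unfold wt
  rw [← prod_mul_distrib, ← prod_mul_distrib]
  refine prod_congr rfl fun e _ => ?_
  by_cases h : e ∈ G
  · simp only [swp, mem_union, mem_sdiff, mem_inter, h, not_true_eq_false, and_false, and_true,
      false_or]
    exact mul_comm _ _
  · simp only [swp, mem_union, mem_sdiff, mem_inter, h, not_false_eq_true, and_false, and_true,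
      or_false]

theorem ex2 (p : ℝ) (f : Finset α × Finset α → ℝ) :
    Ex p (fun A => Ex p fun B => f (A, B)) = ∑ z, wt p z.1 * wt p z.2 * f z := by
  rw [Fintype.sum_prod_type]
  simp only [Ex, mul_sum, mul_assoc]

theorem resample (p : ℝ) (G : Finset α) (f : Finset α → ℝ) :
    Ex p f = Ex p fun A => Ex p fun B => f ((A \ G) ∪ (B ∩ G)) := by
  have h1 := ex2 p fun z => f z.1
  have h2 := ex2 p fun z => f (swp G z).1
  simp only [const] at h1
  refine h1.trans (Eq.trans ?_ h2.symm)
  rw [← Equiv.sum_comp (swp_inv G).toPerm]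
  exact sum_congr rfl fun z _ => congrArg (· * f (swp G z).1) (wt_swp p G z)

theorem prod (p a b : ℝ) (G : Finset α) :
    Ex p (fun A : Finset α => a ^ (G \ A).card * b ^ (G ∩ A).card) =
      ((1 - p) * a + p * b) ^ G.card := by
  have h := master (fun e => p * if e ∈ G then b else 1) fun e => (1 - p) * if e ∈ G then a else 1
  have h2 : ∏ e, ((p * if e ∈ G then b else 1) + (1 - p) * if e ∈ G then a else 1) =
      ((1 - p) * a + p * b) ^ G.card := by
    rw [← prod_const, ← Fintype.prod_ite_mem G]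
    refine prod_congr rfl fun e _ => ?_
    split_ifs <;> ring
  rw [← h2, ← h]
  refine sum_congr rfl fun A _ => ?_
  beta_reduce
  rw [wt, ← prod_const, ← prod_const, ← Fintype.prod_ite_mem (G \ A),
    ← Fintype.prod_ite_mem (G ∩ A), ← prod_mul_distrib, ← prod_mul_distrib]
  refine prod_congr rfl fun e _ => ?_
  by_cases h1 : e ∈ A <;> by_cases h2 : e ∈ G <;> simp [h1, h2]

theorem ind (p a b : ℝ) (e : α) :
    Ex p (fun A : Finset α => if e ∈ A then b else a) = (1 - p) * a + p * b := by
  have h := prod p a b {e}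
  rw [card_singleton, pow_one] at h
  rw [← h]
  congr 1
  funext A
  by_cases h1 : e ∈ A
  · rw [if_pos h1, sdiff_eq_empty_iff_subset.2 (singleton_subset_iff.2 h1),
      singleton_inter_of_mem h1]
    simp
  · rw [if_neg h1, sdiff_eq_self_of_disjoint (disjoint_singleton_left.2 h1),
      singleton_inter_of_notMem h1]
    simp

theorem split (p : ℝ) (e : α) (f : Finset α → ℝ) :
    Ex p f = Ex p fun A => p * f (insert e A) + (1 - p) * f (A.erase e) := by
  rw [resample p {e} f]
  congr 1
  funext A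
  rw [add_comm, ← ind p _ _ e]
  congr 1
  funext B
  split_ifs with h
  · congr 1
    ext x
    by_cases hx : x = e <;> simp [hx, h]
  · congr 1
    ext x
    by_cases hx : x = e <;> simp [hx, h]

theorem card_inter (p : ℝ) (Y : Finset α) :
    Ex p (fun A => ((Y ∩ A).card : ℝ)) = p * Y.card := by
  have h : ∀ A : Finset α, ((Y ∩ A).card : ℝ) = ∑ e ∈ Y, if e ∈ A then (1 : ℝ) else 0 := fun A => by
    rw [sum_boole, filter_mem_eq_inter]
  simp only [h]
  rw [sum p Y fun e A => if e ∈ A then (1 : ℝ) else 0]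
  simp [ind, mul_comm]

theorem card_sdiff (p : ℝ) (Y : Finset α) :
    Ex p (fun A => ((Y \ A).card : ℝ)) = (1 - p) * Y.card := by
  have h : ∀ A : Finset α, ((Y \ A).card : ℝ) = Y.card - ((Y ∩ A).card : ℝ) := fun A => by
    rw [← card_sdiff_add_card_inter Y A]
    push_cast
    ring
  simp only [h]
  rw [sub, const, card_inter]
  ring

theorem pc0 : 0 ≤ pc := by unfold pc; positivity

theorem pc1 : pc ≤ 1 := by unfold pc; norm_num

theorem pd0 : 0 ≤ pd := by unfold pd; positivity

theorem pd1 : pd ≤ 1 := by unfold pd; norm_num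

theorem seed (f : Seed α → ℝ) : ∑ ω, sw ω * f ω = Ex (1 / 2) fun O => E3 fun a b c =>
    (1 / 2) * (f (O, a, b, c, 0) + f (O, a, b, c, 1)) := by
  simp only [Fintype.sum_prod_type, Fin.sum_univ_two, sw, E3, Ex, mul_sum]
  refine sum_congr rfl fun O _ => sum_congr rfl fun a _ => sum_congr rfl fun b _ =>
    sum_congr rfl fun c _ => ?_
  ring

end BE_

theorem t_BE (α : Type) [Fintype α] [DecidableEq α] : BE α where
  wt_nonneg := BE_.wt_nonneg
  const := BE_.const
  add := BE_.add
  sub := BE_.sub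
  mul := BE_.mul
  sum := BE_.sum
  mono := fun h0 h1 _ _ h => BE_.mono h0 h1 h
  comm := BE_.comm
  split := BE_.split
  resample := BE_.resample
  prod := BE_.prod
  card_inter := BE_.card_inter
  card_sdiff := BE_.card_sdiff
  e3_add := fun f g => by simp only [E3, BE_.add]
  e3_sub := fun f g => by simp only [E3, BE_.sub]
  e3_mul := fun t f => by simp only [E3, BE_.mul]
  e3_const := fun t => by simp only [E3, BE_.const]
  e3_sum := fun s f => by simp only [E3, BE_.sum]
  e3_mono := fun h => BE_.mono (by norm_num) (by norm_num) fun a =>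
    BE_.mono BE_.pc0 BE_.pc1 fun b => BE_.mono BE_.pd0 BE_.pd1 fun c => h a b c
  seed := BE_.seed

end Vale.Agent.P331.Full
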