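import Vale.Agent.P331.FSt

/-! P331: basic facts on the paths. -/

namespace Vale.Agent.P331.Full

open Finset

variable {α : Type} [Fintype α] [DecidableEq α] {r : Finset α → ℕ}

namespace BP_

variable (Dl Cl Rl : ℕ → Finset α)

theorem pN_le {h s : ℕ} (hs : s ≤ h + 1) : pN r Dl Cl h s = ex r (Dl h) (pB r Dl Cl h s) :=
  if_pos hs

theorem pN_gt {h s : ℕ} (hs : ¬ s ≤ h + 1) : pN r Dl Cl h s = ∅ := if_neg hs

theorem pB_succ (h s : ℕ) : pB r Dl Cl (h + 1) s =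
    if s ≤ h + 1 then pN r Dl Cl h s ∪ (Cl h ∩ pN r Dl Cl h (s - 1)) else ∅ := by
  rw [pB]
  split_ifs with hs
  · rw [pN_le Dl Cl hs, pN_le Dl Cl (show s - 1 ≤ h + 1 by omega)]
  · rfl

theorem pB_big {h s : ℕ} (hs : h + 1 ≤ s) : pB r Dl Cl h s = ∅ := by
  cases h with
  | zero => exact if_neg (by omega)
  | succ h => exact if_neg (by omega)

theorem pB_sub_pN (hX : BX r) (h s : ℕ) : pB r Dl Cl h s ⊆ pN r Dl Cl h s := by
  by_cases hs : s ≤ h + 1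
  · rw [pN_le Dl Cl hs]
    exact hX.sub_ex _ _
  · rw [pB_big Dl Cl (by omega)]
    exact empty_subset _

theorem pN_sub_pB (h s : ℕ) : pN r Dl Cl h s ⊆ pB r Dl Cl (h + 1) s := by
  by_cases hs : s ≤ h + 1
  · rw [pB_succ, if_pos hs]
    exact subset_union_left
  · rw [pN_gt Dl Cl hs]
    exact empty_subset _

theorem pB_zero (hX : BX r) (h : ℕ) : univ ⊆ pB r Dl Cl h 0 := by
  induction h with
  | zero => exact (if_pos rfl : pB r Dl Cl 0 0 = univ).ge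
  | succ h ih => exact (ih.trans (pB_sub_pN Dl Cl hX h 0)).trans (pN_sub_pB Dl Cl h 0)

theorem stepN (hX : BX r) {h : ℕ} (hB : ∀ s, pB r Dl Cl h (s + 1) ⊆ pB r Dl Cl h s) (s : ℕ) :
    pN r Dl Cl h (s + 1) ⊆ pN r Dl Cl h s := by
  by_cases hs : s + 1 ≤ h + 1
  · rw [pN_le Dl Cl hs, pN_le Dl Cl (show s ≤ h + 1 by omega)]
    exact hX.ex_mono _ (hB s)
  · rw [pN_gt Dl Cl hs]
    exact empty_subset _

theorem stepB (hX : BX r) (h : ℕ) : ∀ s, pB r Dl Cl h (s + 1) ⊆ pB r Dl Cl h s := by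
  induction h with
  | zero => exact fun s => (pB_big Dl Cl (by omega)).le.trans (empty_subset _)
  | succ h ih =>
    intro s
    refine Subset.trans ?_ (pN_sub_pB Dl Cl h s)
    rw [pB_succ]
    split_ifs
    · exact union_subset (stepN Dl Cl hX ih s) inter_subset_right
    · exact empty_subset _

theorem pN_anti (hX : BX r) (h : ℕ) {s s' : ℕ} (hs : s ≤ s') :
    pN r Dl Cl h s' ⊆ pN r Dl Cl h s :=
  antitone_nat_of_succ_le (f := pN r Dl Cl h) (stepN Dl Cl hX (stepB Dl Cl hX h)) hs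

theorem pN_mono (hX : BX r) {h h' : ℕ} (s : ℕ) (hh : h ≤ h') :
    pN r Dl Cl h s ⊆ pN r Dl Cl h' s :=
  monotone_nat_of_le_succ (f := fun h => pN r Dl Cl h s)
    (fun h => (pN_sub_pB Dl Cl h s).trans (pB_sub_pN Dl Cl hX (h + 1) s)) hh

theorem mem_pX {s : ℕ} {e : α} : e ∈ pX r Dl Cl s ↔ ∃ h, e ∈ pN r Dl Cl h s := by
  simp only [pX, mem_filter, mem_univ, true_and]

theorem pX_eq (hX : BX r) (S h : ℕ) :
    ∃ H, h ≤ H ∧ ∀ s ≤ S, pX r Dl Cl s = pN r Dl Cl H s := by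
  have h1 : ∀ s e, ∃ j, e ∈ pX r Dl Cl s → e ∈ pN r Dl Cl j s := fun s e => by
    by_cases he : e ∈ pX r Dl Cl s
    · exact ((mem_pX Dl Cl).1 he).imp fun _ k _ => k
    · exact ⟨0, fun k => absurd k he⟩
  choose f hf using h1
  refine ⟨max h ((range (S + 1) ×ˢ univ).sup fun x : ℕ × α => f x.1 x.2), le_max_left _ _,
    fun s hs => Subset.antisymm (fun e he => pN_mono Dl Cl hX s (le_max_of_le_right ?_)
      (hf s e he)) fun e he => (mem_pX Dl Cl).2 ⟨_, he⟩⟩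
  exact le_sup (f := fun x : ℕ × α => f x.1 x.2) (b := (s, e))
    (mem_product.2 ⟨mem_range.2 (Nat.lt_succ_of_le hs), mem_univ _⟩)

theorem pB_congr {Dl Cl Dl' Cl' : ℕ → Finset α} {h : ℕ} (h1 : ∀ j < h, Dl j = Dl' j)
    (h2 : ∀ j < h, Cl j = Cl' j) : ∀ s, pB r Dl Cl h s = pB r Dl' Cl' h s := by
  induction h with
  | zero => exact fun _ => rfl
  | succ h ih =>
    intro s
    have h3 := ih (fun j hj => h1 j (by omega)) fun j hj => h2 j (by omega)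
    rw [pB, pB, h3, h3, h1 h (by omega), h2 h (by omega)]

theorem qB_congr {Dl Ul Dl' Ul' : ℕ → Finset α} {h : ℕ} (s : ℕ) (h1 : ∀ j < h, Dl j = Dl' j)
    (h2 : ∀ j < h, Ul j = Ul' j) : qB r Dl s Ul h = qB r Dl' s Ul' h := by
  induction h with
  | zero => rfl
  | succ h ih =>
    rw [qB, qB, ih (fun j hj => h1 j (by omega)) fun j hj => h2 j (by omega), h1 h (by omega),
      h2 h (by omega)]

theorem qB_mono (hX : BX r) (s : ℕ) {Ul Ul' : ℕ → Finset α} (hU : ∀ j, Ul j ⊆ Ul' j) (h : ℕ) :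
    qB r Dl s Ul h ⊆ qB r Dl s Ul' h := by
  induction h with
  | zero => exact Subset.refl _
  | succ h ih =>
    rw [qB, qB]
    split_ifs
    · exact union_subset_union (hX.ex_mono _ ih) (hU h)
    · exact Subset.refl _

theorem pB_eq_qB (s h : ℕ) :
    pB r Dl Cl h (s + 1) = qB r Dl s (fun j => Cl j ∩ pN r Dl Cl j s) h := by
  induction h with
  | zero => exact pB_big Dl Cl (by omega)
  | succ h ih =>
    rw [pB_succ, qB]
    by_cases hs : s ≤ h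
    · rw [if_pos (Nat.succ_le_succ hs), if_pos hs, pN_le Dl Cl (Nat.succ_le_succ hs), ih,
        Nat.add_sub_cancel]
    · rw [if_neg (by omega), if_neg hs]

theorem win_sub (h s : ℕ) : win r Dl Cl Rl h s ⊆ pN r Dl Cl h s := by
  unfold win
  split_ifs
  · exact sdiff_subset.trans inter_subset_right
  · exact empty_subset _

theorem qB_sub_pB (hX : BX r) (h s : ℕ) : qB r Dl s (qU r Dl Cl Rl s) h ⊆ pB r Dl Cl h s := by
  induction h with
  | zero => exact empty_subset _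
  | succ h ih =>
    refine Subset.trans ?_ (pN_sub_pB Dl Cl h s)
    rw [qB]
    split_ifs with hs
    · refine union_subset ?_ (union_subset
        (inter_subset_right.trans (pN_anti Dl Cl hX h (Nat.le_succ s))) (win_sub Dl Cl Rl h s))
      rw [pN_le Dl Cl (Nat.le_succ_of_le hs)]
      exact hX.ex_mono _ ih
    · exact empty_subset _

theorem pB_sub_qB (hX : BX r) (h s : ℕ) :
    pB r Dl Cl h (s + 2) ⊆ qB r Dl s (qU r Dl Cl Rl s) h := by
  induction h with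
  | zero => exact (pB_big Dl Cl (by omega)).le.trans (empty_subset _)
  | succ h ih =>
    rw [pB_succ, qB]
    by_cases hs : s + 2 ≤ h + 1
    · rw [if_pos hs, if_pos (by omega), pN_le Dl Cl hs]
      exact union_subset_union (hX.ex_mono _ ih) subset_union_left
    · rw [if_neg hs]
      exact empty_subset _

theorem qB_le (hX : BX r) (s : ℕ) (Ul : ℕ → Finset α) {i h : ℕ} (hs : s ≤ i) (hi : i ≤ h) :
    qB r Dl s Ul i ⊆ qB r Dl s Ul h := by
  induction h, hi using Nat.le_induction with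
  | base => exact Subset.refl _
  | succ h hi ih =>
    rw [qB, if_pos (hs.trans hi)]
    exact (ih.trans (hX.sub_ex _ _)).trans subset_union_left

theorem win_sub_pQ (hX : BX r) {j h : ℕ} (s : ℕ) (hj : j < h) :
    win r Dl Cl Rl j s ⊆ pQ r Dl Cl Rl h s := by
  by_cases hs : s ≤ j
  · refine Subset.trans ?_ ((qB_le Dl hX s (qU r Dl Cl Rl s) (Nat.le_succ_of_le hs) hj).trans
      (hX.sub_ex _ _))
    rw [qB, if_pos hs]
    exact subset_union_right.trans subset_union_right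
  · rw [win, if_neg hs]
    exact empty_subset _

theorem sl_cW (F : Finset α) (lev : α → ℕ) (Dc Gc Rc : Finset α) (h s : ℕ) :
    sl lev (cW r F lev Dc Gc Rc s) h =
      win r (sD F lev Dc) (sC F lev Dc Gc) (sR F lev Dc Gc Rc) h s := by
  ext e
  rw [sl, cW, win, mem_filter, mem_filter]
  split_ifs with hs
  · rw [mem_sdiff, mem_inter (s₁ := sR F lev Dc Gc Rc h), sR, sl, mem_filter]
    constructor
    · rintro ⟨⟨h1, -, h2, h3⟩, rfl⟩
      exact ⟨⟨⟨h1, rfl⟩, h2⟩, h3⟩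
    · rintro ⟨⟨⟨h1, rfl⟩, h2⟩, h3⟩
      exact ⟨⟨h1, hs, h2, h3⟩, rfl⟩
  · exact iff_of_false (fun k => hs (k.2 ▸ k.1.2.1)) (notMem_empty e)

end BP_

theorem t_BP (_hk : IsRk r) (_hR : BR r) (hX : BX r) : BP r where
  pB_succ := BP_.pB_succ
  pN_zero Dl Cl h := eq_univ_of_forall fun e =>
    BP_.pB_sub_pN Dl Cl hX h 0 (BP_.pB_zero Dl Cl hX h (mem_univ e))
  pB_big := BP_.pB_big
  pN_big Dl Cl _ _ hs := BP_.pN_gt Dl Cl (by omega)
  pN_act Dl Cl h := by rw [BP_.pN_le Dl Cl le_rfl, BP_.pB_big Dl Cl le_rfl]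
  pB_sub_pN Dl Cl := BP_.pB_sub_pN Dl Cl hX
  pN_sub_pB := BP_.pN_sub_pB
  pB_anti Dl Cl h _ _ hs := antitone_nat_of_succ_le (f := pB r Dl Cl h) (BP_.stepB Dl Cl hX h) hs
  pN_anti Dl Cl h _ _ hs := BP_.pN_anti Dl Cl hX h hs
  pN_mono Dl Cl _ _ s hh := BP_.pN_mono Dl Cl hX s hh
  pN_sub_pX Dl Cl h _ _ he := (BP_.mem_pX Dl Cl).2 ⟨h, he⟩
  pX_anti Dl Cl _ _ hs _ he := (BP_.mem_pX Dl Cl).2
    (((BP_.mem_pX Dl Cl).1 he).imp fun h k => BP_.pN_anti Dl Cl hX h hs k)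
  pX_eq Dl Cl := BP_.pX_eq Dl Cl hX
  pB_congr := BP_.pB_congr
  pN_congr h1 h2 s := by
    rw [pN, pN, BP_.pB_congr (fun j hj => h1 j hj.le) h2, h1 _ le_rfl]
  qB_congr := BP_.qB_congr
  qN_mono Dl s _ _ hU h := hX.ex_mono _ (BP_.qB_mono Dl hX s hU h)
  pN_eq_qN Dl Cl _ _ hs := by
    rw [BP_.pN_le Dl Cl (Nat.succ_le_succ hs), BP_.pB_eq_qB, qN]
  qB_sub_pB Dl Cl Rl := BP_.qB_sub_pB Dl Cl Rl hX
  pB_sub_qB Dl Cl Rl := BP_.pB_sub_qB Dl Cl Rl hX
  pQ_sub_pN Dl Cl Rl h s hs := by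
    rw [BP_.pN_le Dl Cl (Nat.le_succ_of_le hs)]
    exact hX.ex_mono _ (BP_.qB_sub_pB Dl Cl Rl hX h s)
  pN_sub_pQ Dl Cl Rl h s := by
    by_cases hs : s + 2 ≤ h + 1
    · rw [BP_.pN_le Dl Cl hs]
      exact hX.ex_mono _ (BP_.pB_sub_qB Dl Cl Rl hX h s)
    · rw [BP_.pN_gt Dl Cl hs]
      exact empty_subset _
  win_sub_pQ Dl Cl Rl _ _ s hj := BP_.win_sub_pQ Dl Cl Rl hX s hj
  sl_cW := BP_.sl_cW

end Vale.Agent.P331.Full
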