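import Vale.Agent.P331.FSt

/-! P331: basic facts on rank and span. -/

namespace Vale.Agent.P331.Full

open Finset

variable {α : Type} [Fintype α] [DecidableEq α] {r : Finset α → ℕ}

namespace BR_

theorem mem_cl {e : α} {A : Finset α} : e ∈ cl r A ↔ r (insert e A) = r A := by
  simp [cl]

theorem sub_cl (A : Finset α) : A ⊆ cl r A := fun e he => mem_cl.2 (by rw [insert_eq_of_mem he])

omit [Fintype α] in
theorem anti (hk : IsRk r) (Y : Finset α) {T T' : Finset α} (h : T ⊆ T') :
    r (T' ∪ Y) + r T ≤ r (T ∪ Y) + r T' := by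
  have h1 := hk.sub (T ∪ Y) T'
  have h2 : r (T' ∪ Y) ≤ r (T ∪ Y ∪ T') := hk.mono (union_subset subset_union_right
    (subset_union_right.trans subset_union_left))
  have h3 : r T ≤ r ((T ∪ Y) ∩ T') := hk.mono (subset_inter subset_union_left h)
  omega

theorem not_mem_cl (hk : IsRk r) {e : α} {A : Finset α} (h : e ∉ cl r A) :
    r (insert e A) = r A + 1 := by
  have h1 := hk.ins e A
  have h2 := hk.mono (subset_insert e A)
  rw [mem_cl] at h
  omega

theorem cl_mono (hk : IsRk r) {A B : Finset α} (h : A ⊆ B) : cl r A ⊆ cl r B := fun e he => by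
  have h1 := anti hk {e} h
  have h2 := hk.mono (subset_insert e B)
  rw [union_comm, union_comm A, ← insert_eq, ← insert_eq] at h1
  rw [mem_cl] at he ⊢
  omega

theorem union_cl (hk : IsRk r) {S T : Finset α} (h : T ⊆ cl r S) : r (S ∪ T) = r S := by
  induction T using Finset.induction_on with
  | empty => rw [union_empty]
  | insert a T _ ih =>
    rw [union_insert, mem_cl.1 (cl_mono hk subset_union_left (h (mem_insert_self a T))),
      ih ((subset_insert a T).trans h)]

theorem sub_cl_iff (hk : IsRk r) {S T : Finset α} : T ⊆ cl r S ↔ r (S ∪ T) = r S :=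
  ⟨union_cl hk, fun h e he => mem_cl.2 (le_antisymm (h ▸ hk.mono (insert_subset
    (mem_union_right S he) subset_union_left)) (hk.mono (subset_insert e S)))⟩

theorem r_cl (hk : IsRk r) (A : Finset α) : r (cl r A) = r A := by
  rw [← union_cl hk (Subset.refl (cl r A)), union_eq_right.2 (sub_cl A)]

theorem cl_cl (hk : IsRk r) (A : Finset α) : cl r (cl r A) = cl r A := by
  refine Subset.antisymm (fun e he => mem_cl.2 ?_) (sub_cl _)
  have h1 := hk.mono (insert_subset_insert e (sub_cl (r := r) A))
  have h2 := hk.mono (subset_insert e A)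
  rw [mem_cl.1 he, r_cl hk] at h1
  omega

theorem cl_sub (hk : IsRk r) {A B : Finset α} (h : A ⊆ cl r B) : cl r A ⊆ cl r B :=
  cl_cl hk B ▸ cl_mono hk h

omit [Fintype α] in
theorem union_le (hk : IsRk r) (A B : Finset α) : r (A ∪ B) ≤ r A + (B \ A).card := by
  have k : ∀ C : Finset α, r (A ∪ C) ≤ r A + C.card := fun C => by
    induction C using Finset.induction_on with
    | empty => simp
    | insert a C ha ih =>
      have := hk.ins a (A ∪ C)
      rw [union_insert, card_insert_of_notMem ha]
      omega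
  rw [← union_sdiff_self_eq_union]
  exact k _

theorem basis (hk : IsRk r) (Y T : Finset α) :
    ∃ Y' ⊆ Y, r (T ∪ Y') = r T + Y'.card ∧ r (T ∪ Y') = r (T ∪ Y) := by
  induction Y using Finset.induction_on with
  | empty => exact ⟨∅, Subset.refl _, by simp, rfl⟩
  | insert a Y ha ih =>
    obtain ⟨Y', h1, h2, h3⟩ := ih
    by_cases h : a ∈ cl r (T ∪ Y')
    · refine ⟨Y', h1.trans (subset_insert a Y), h2, ?_⟩
      rw [union_insert, mem_cl.1 (cl_mono hk (union_subset_union_right h1) h), h3]
    · have h4 := not_mem_cl hk h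
      have h5 := hk.ins a (T ∪ Y)
      have h6 := hk.mono (insert_subset_insert a (union_subset_union_right (s := T) h1))
      refine ⟨insert a Y', insert_subset_insert a h1, ?_, ?_⟩
      · rw [union_insert, card_insert_of_notMem fun k => ha (h1 k)]
        omega
      · rw [union_insert, union_insert]
        omega

omit [Fintype α] in
theorem ind_sub (hk : IsRk r) {T T' Y Z : Finset α} (h : r (T ∪ Y) = r T + Y.card) (h1 : T' ⊆ T)
    (h2 : Z ⊆ Y) : r (T' ∪ Z) = r T' + Z.card := by
  have k1 := union_le hk (T ∪ Z) Y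
  have k2 : (Y \ (T ∪ Z)).card ≤ (Y \ Z).card :=
    card_le_card (sdiff_subset_sdiff (Subset.refl Y) subset_union_right)
  have k3 := card_sdiff_add_card_eq_card h2
  have k4 := anti hk Z h1
  have k5 := union_le hk T' Z
  have k6 : (Z \ T').card ≤ Z.card := card_le_card sdiff_subset
  rw [union_assoc, union_eq_right.2 h2] at k1
  omega

end BR_

open BR_ in
theorem t_BR (hk : IsRk r) : BR r where
  mem_cl := mem_cl
  not_mem_cl := not_mem_cl hk
  sub_cl := sub_cl
  r_cl := r_cl hk
  cl_mono := cl_mono hk
  cl_cl := cl_cl hk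
  cl_sub := cl_sub hk
  sub_cl_iff := sub_cl_iff hk
  r_le_of_sub_cl := fun {_ B} h => r_cl hk B ▸ hk.mono h
  cl_eq_of_r := fun {A B} h h' => Subset.antisymm (cl_mono hk h) (cl_sub hk ((sub_cl_iff hk).2
    (by rw [union_eq_right.2 h]; exact le_antisymm h' (hk.mono h))))
  exch := fun {x y A} h h' => by
    have h1 := not_mem_cl hk h'
    have h2 := hk.ins y A
    have h3 := hk.mono (subset_insert y (insert x A))
    rw [mem_cl] at h ⊢
    rw [insert_comm] at h
    omega
  le_card := fun A => by simpa [hk.empty] using union_le hk ∅ A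
  union_le := union_le hk
  rc_nonneg := fun Y T => sub_nonneg.2 (Nat.cast_le.2 (hk.mono subset_union_left))
  rc_le_card := fun Y T => sub_le_iff_le_add'.2 (by exact_mod_cast union_le hk T Y)
  rc_anti := fun Y T T' h => by
    have : (r (T' ∪ Y) : ℝ) + r T ≤ r (T ∪ Y) + r T' := by exact_mod_cast anti hk Y h
    unfold rc
    linarith
  rc_mono := fun T h => sub_le_sub_right (Nat.cast_le.2 (hk.mono (union_subset_union_right h))) _
  rc_chain := fun Y Z T => by
    unfold rc
    rw [union_assoc]
    ring
  basis := basis hk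
  ind_sub := ind_sub hk

end Vale.Agent.P331.Full
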