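import Vale.Agent.P331.FSt

/-! P331: basic facts on expansions. -/

namespace Vale.Agent.P331.Full

open Finset

variable {α : Type} [Fintype α] [DecidableEq α] {r : Finset α → ℕ}

namespace BX_

/-- Maximizers of the density objective above `B`. -/
def Mx (r : Finset α → ℕ) (D B S : Finset α) : Prop :=
  B ⊆ S ∧ ∀ T, B ⊆ T → dv r D T ≤ dv r D S

omit [Fintype α] in
theorem dv_sup (hk : IsRk r) (D S T : Finset α) :
    dv r D S + dv r D T ≤ dv r D (S ∪ T) + dv r D (S ∩ T) := by
  have h1 := card_union_add_card_inter (D ∩ S) (D ∩ T)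
  have h2 := hk.sub S T
  rw [← inter_union_distrib_left, ← inter_inter_distrib_left] at h1
  unfold dv
  omega

omit [Fintype α] in
theorem mx_union (hk : IsRk r) {D B B' S S' : Finset α} (hB : B ⊆ B') (h : Mx r D B S)
    (h' : Mx r D B' S') : Mx r D B' (S ∪ S') := by
  refine ⟨h'.1.trans subset_union_right, fun T hT => ?_⟩
  have h1 := dv_sup hk D S S'
  have h2 := h.2 (S ∩ S') (subset_inter h.1 (hB.trans h'.1))
  have h3 := h'.2 T hT
  omega

theorem mx_exists (D B : Finset α) : ∃ S, Mx r D B S := by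
  obtain ⟨S, hS, h⟩ := exists_max_image (univ.filter fun S : Finset α => B ⊆ S) (dv r D)
    ⟨B, by simp⟩
  exact ⟨S, (mem_filter.1 hS).2, fun T hT => h T (mem_filter.2 ⟨mem_univ _, hT⟩)⟩

theorem le_ex {D B S : Finset α} (h : Mx r D B S) : S ⊆ ex r D B :=
  le_sup (f := id) (mem_filter.2 ⟨mem_univ _, h⟩)

theorem mx_ex (hk : IsRk r) (D B : Finset α) : Mx r D B (ex r D B) := by
  obtain ⟨S, hS⟩ := mx_exists (r := r) D B
  have key : Mx r D B (S ∪ ex r D B) := by
    unfold ex
    refine sup_induction (p := fun T => Mx r D B (S ∪ T)) (by simpa using hS)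
      (fun A hA A' hA' => ?_) fun A hA => mx_union hk Subset.rfl hS (mem_filter.1 hA).2
    have := mx_union hk Subset.rfl hA hA'
    rwa [← union_union_distrib_left] at this
  rwa [union_eq_right.2 (le_ex hS)] at key

end BX_

open BX_ in
theorem t_BX (hk : IsRk r) (hR : BR r) : BX r where
  sub_ex D B := (mx_ex hk D B).1
  dv_le D _ T h := (mx_ex hk D _).2 T h
  cl_ex D B := by
    refine Subset.antisymm (le_ex ⟨(mx_ex hk D B).1.trans (hR.sub_cl _), fun T hT => ?_⟩)
      (hR.sub_cl _)
    refine ((mx_ex hk D B).2 T hT).trans ?_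
    have := card_le_card (inter_subset_inter (Subset.refl D) (hR.sub_cl (ex r D B)))
    unfold dv
    rw [hR.r_cl]
    omega
  ex_mono D _ _ h := subset_union_left.trans (le_ex (mx_union hk h (mx_ex hk D _) (mx_ex hk D _)))
  span D B := by
    have h := mx_ex hk D B
    have h1 := h.2 (B ∪ (D ∩ ex r D B)) subset_union_left
    have h2 := hk.mono (union_subset h.1 (inter_subset_right (s₁ := D)))
    have h3 : (D ∩ ex r D B).card ≤ (D ∩ (B ∪ (D ∩ ex r D B))).card :=
      card_le_card (subset_inter inter_subset_left subset_union_right)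
    unfold dv at h1
    omega
  r_ex_empty D := by
    have h1 := (mx_ex hk D ∅).2 ∅ Subset.rfl
    have h2 := card_le_card (inter_subset_left (s₁ := D) (s₂ := ex r D ∅))
    unfold dv at h1
    rw [hk.empty, inter_empty, card_empty] at h1
    omega

end Vale.Agent.P331.Full
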