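import Vale.Agent.P331.FSt

/-! P331: the greedy basis and the filter. -/

namespace Vale.Agent.P331.Full

open Finset

variable {α : Type} [Fintype α] [DecidableEq α] {r : Finset α → ℕ}

namespace Filt_

omit [DecidableEq α] in
theorem ky_inj {x y : Code} {e f : α} (h : ky x e = ky y f) : e = f := by
  have h1 : (ofLex (ky x e)).2 = (ofLex (ky y f)).2 := by rw [h]
  exact (Fintype.equivFin α).injective (Fin.ext h1)

omit [DecidableEq α] in
theorem ky_le {x y : Code} {e f : α} (h : ky x e ≤ ky y f) : x.1 ≤ y.1 := by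
  rcases Prod.Lex.toLex_le_toLex.1 h with h | h
  · exact h.le
  · exact h.1.le

theorem rw1_pos (x : Code) : 0 < rw1 x := zpow_pos (by norm_num) _

theorem rw1_mono {x y : Code} (h : x.1 ≤ y.1) : rw1 x ≤ rw1 y :=
  zpow_le_zpow_right₀ (by norm_num) h

theorem span (b : Bas r) (z : α → Code) (A : Finset α) (n : ℕ) :
    ∀ e ∈ A, (A.filter fun f => ky (z e) e < ky (z f) f).card = n →
      e ∈ cl r ((gr r z A).filter fun f => ky (z e) e ≤ ky (z f) f) := by
  induction n using Nat.strong_induction_on with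
  | _ n ih =>
    intro e he hn
    by_cases hg : e ∈ gr r z A
    · exact b.R.sub_cl _ (mem_filter.2 ⟨hg, le_rfl⟩)
    · have h1 : e ∈ cl r (A.filter fun f => ky (z e) e < ky (z f) f) := by
        by_contra h
        exact hg (mem_filter.2 ⟨he, h⟩)
      refine b.R.cl_sub (fun f hf => ?_) h1
      obtain ⟨hfA, hef⟩ := mem_filter.1 hf
      refine b.R.cl_mono (fun g hg => ?_) (ih _ ?_ f hfA rfl)
      · exact mem_filter.2 ⟨(mem_filter.1 hg).1, hef.le.trans (mem_filter.1 hg).2⟩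
      · rw [← hn]
        refine card_lt_card ((ssubset_iff_of_subset fun g hg => ?_).2 ⟨f, hf, fun h => ?_⟩)
        · exact mem_filter.2 ⟨(mem_filter.1 hg).1, hef.trans (mem_filter.1 hg).2⟩
        · exact lt_irrefl _ (mem_filter.1 h).2

theorem indep (b : Bas r) (z : α → Code) (A S : Finset α) : S ⊆ gr r z A → r S = S.card := by
  induction S using Finset.induction_on_min_value (fun e => ky (z e) e) with
  | empty => intro _; simpa using b.k.empty
  | insert a s ha hmin ih =>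
    intro hs
    have haG := mem_filter.1 (hs (mem_insert_self a s))
    have h1 : a ∉ cl r s := fun h => haG.2 (b.R.cl_mono (fun f hf => ?_) h)
    · rw [b.R.not_mem_cl h1, ih ((subset_insert a s).trans hs), card_insert_of_notMem ha]
    · refine mem_filter.2 ⟨(mem_filter.1 (hs (mem_insert_of_mem hf))).1,
        lt_of_le_of_ne (hmin f hf) fun h => ha ?_⟩
      rw [ky_inj h]; exact hf

omit [Fintype α] in
theorem cake (z : α → Code) (I : Finset α) : ∀ G : Finset α,
    (∀ t : ℤ, (I.filter fun e => t ≤ (z e).1).card ≤ (G.filter fun e => t ≤ (z e).1).card) →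
      ∑ e ∈ I, rw1 (z e) ≤ ∑ e ∈ G, rw1 (z e) := by
  induction I using Finset.induction_on_max_value (fun e => (z e).1) with
  | empty => intro G _; simpa using sum_nonneg fun e _ => (rw1_pos (z e)).le
  | insert a s ha hmax ih =>
    intro G h
    obtain ⟨g, hg⟩ : (G.filter fun e => (z a).1 ≤ (z e).1).Nonempty :=
      card_pos.1 (lt_of_lt_of_le (card_pos.2 ⟨a, by simp⟩) (h _))
    obtain ⟨hgG, hag⟩ := mem_filter.1 hg
    rw [sum_insert ha, ← add_sum_erase G _ hgG]
    refine add_le_add (rw1_mono hag) (ih _ fun t => ?_)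
    by_cases ht : t ≤ (z a).1
    · have h1 := h t
      rw [filter_insert, if_pos ht, card_insert_of_notMem (fun h => ha (mem_filter.1 h).1)] at h1
      rw [filter_erase, card_erase_of_mem (mem_filter.2 ⟨hgG, ht.trans hag⟩)]
      omega
    · rw [filter_eq_empty_iff.2 fun e he h => ht (h.trans (hmax e he))]
      simp

end Filt_

open Filt_

theorem t_Greedy (b : Bas r) : StGreedy r := by
  intro z A
  refine ⟨indep b z A _ Subset.rfl, fun I hI hr => cake z I _ fun t => ?_⟩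
  have h1 := b.R.ind_sub (T := ∅) (T' := ∅) (Y := I) (Z := I.filter fun e => t ≤ (z e).1)
    (by simpa [b.k.empty] using hr) Subset.rfl (filter_subset _ _)
  rw [empty_union, b.k.empty, zero_add] at h1
  rw [← h1]
  refine (b.R.r_le_of_sub_cl fun e he => ?_).trans (b.R.le_card _)
  obtain ⟨heI, ht⟩ := mem_filter.1 he
  refine b.R.cl_mono (fun f hf => ?_) (span b z A _ e (hI heI) rfl)
  exact mem_filter.2 ⟨(mem_filter.1 hf).1, ht.trans (ky_le (mem_filter.1 hf).2)⟩

namespace Filt_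

/-- The elements outside the sample that would enter its greedy basis. -/
noncomputable def Fp (r : Finset α → ℕ) (z : α → Code) (O : Finset α) : Finset α :=
  (Ep r z).filter fun e =>
    e ∉ O ∧ e ∉ cl r ((O ∩ Ep r z).filter fun f => ky (z e) e < ky (z f) f)

theorem mem_Fs {z : α → Code} {O : Finset α} {e : α} : e ∈ Fs r O z ↔ filt r O z e (z e) := by
  simp [Fs]

theorem Fs_sub (z : α → Code) (O : Finset α) : Fs r O z ⊆ Fp r z O := by
  intro e he
  obtain ⟨h1, h2, h3, h4, -⟩ := mem_Fs.1 he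
  exact mem_filter.2 ⟨mem_filter.2 ⟨mem_univ _, h1, h2⟩, h3, h4⟩

theorem ex_out (b : Bas r) (w : α → ℝ) (G : Finset α) :
    Ex (1 / 2) (fun O => ∑ e ∈ G \ O, w e) = 1 / 2 * ∑ e ∈ G, w e := by
  have h1 : ∀ O : Finset α, ∑ e ∈ G \ O, w e = ∑ e ∈ G, if e ∉ O then w e else 0 := fun O => by
    rw [sdiff_eq_filter, sum_filter]
  simp only [h1]
  rw [b.E.sum, mul_sum]
  refine sum_congr rfl fun e _ => ?_
  rw [b.E.split _ e]
  refine Eq.trans ?_ (b.E.const (1 / 2) _)
  congr 1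
  funext A
  simp only [mem_insert_self, notMem_erase, not_true, if_false, not_false_iff, if_true]
  ring

theorem ex_Fp (b : Bas r) (z : α → Code) :
    Ex (1 / 2) (fun O => ∑ e ∈ Fp r z O, rw1 (z e)) =
      Ex (1 / 2) fun O => ∑ e ∈ gr r z (O ∩ Ep r z), rw1 (z e) := by
  have h2 : ∀ O : Finset α, ∑ e ∈ gr r z (O ∩ Ep r z), rw1 (z e) = ∑ e ∈ Ep r z,
      if e ∈ O ∧ e ∉ cl r ((O ∩ Ep r z).filter fun f => ky (z e) e < ky (z f) f)
      then rw1 (z e) else 0 := fun O => by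
    rw [← sum_filter]
    congr 1
    ext e
    simp only [gr, mem_filter, mem_inter]
    tauto
  simp only [h2, Fp, sum_filter]
  rw [b.E.sum, b.E.sum]
  refine sum_congr rfl fun e _ => ?_
  rw [b.E.split _ e, b.E.split _ e (fun O => if e ∈ O ∧ _ then _ else _)]
  congr 1
  funext A
  have h3 : ((insert e A ∩ Ep r z).filter fun f => ky (z e) e < ky (z f) f) =
      (A.erase e ∩ Ep r z).filter fun f => ky (z e) e < ky (z f) f := by
    ext f
    simp only [mem_filter, mem_inter, mem_insert, mem_erase]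
    by_cases hf : f = e
    · subst hf; simp
    · simp [hf]
  rw [h3]
  simp only [mem_insert_self, notMem_erase, not_true, false_and, if_false, not_false_iff, true_and]
  ring

theorem small (n : ℕ) : (n : ℝ) * (1024 : ℝ) ^ (-(n : ℤ) - 1) ≤ 1 / 1024 := by
  have h1 : (n : ℝ) ≤ 1024 ^ n := by
    exact_mod_cast (Nat.lt_pow_self (by norm_num : 1 < 1024)).le
  have h2 : (1024 : ℝ) ^ (-(n : ℤ) - 1) = (1024 ^ n)⁻¹ * (1 / 1024) := by
    rw [zpow_sub_one₀ (by norm_num), zpow_neg, zpow_natCast]; norm_num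
  have h3 : (0 : ℝ) < 1024 ^ n := by positivity
  rw [h2, ← mul_assoc]
  have : (n : ℝ) * (1024 ^ n)⁻¹ ≤ 1 := by rw [← div_eq_mul_inv, div_le_one h3]; exact h1
  linarith

theorem keep (b : Bas r) (hG : StGreedy r) (z : α → Code) (O : Finset α) :
    ∑ e ∈ gr r z (Ep r z) \ O, rw1 (z e) - (∑ e ∈ gr r z (Ep r z), rw1 (z e)) / 1024 ≤
      ∑ e ∈ gr r z (Ep r z) ∩ Fs r O z, rw1 (z e) := by
  set M := ∑ e ∈ gr r z (Ep r z), rw1 (z e) with hM
  have hM0 : 0 ≤ M := sum_nonneg fun e _ => (rw1_pos _).le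
  have h1 : ∀ e ∈ (gr r z (Ep r z) \ O) \ Fs r O z,
      rw1 (z e) ≤ (1024 : ℝ) ^ (-(Fintype.card α : ℤ) - 1) * M := by
    intro e he
    obtain ⟨he, hF⟩ := mem_sdiff.1 he
    obtain ⟨he, hO⟩ := mem_sdiff.1 he
    obtain ⟨hE, hc⟩ := mem_filter.1 he
    have h2 : ¬ ∀ o ∈ O ∩ Ep r z, (z o).1 ≤ (z e).1 + Fintype.card α := fun h => hF
      (mem_Fs.2 ⟨(mem_filter.1 hE).2.1, (mem_filter.1 hE).2.2, hO,
        fun h' => hc (b.R.cl_mono (filter_subset_filter _ inter_subset_right) h'), h⟩)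
    push Not at h2
    obtain ⟨o, ho, hlt⟩ := h2
    have hoE := (mem_inter.1 ho).2
    have h3 : rw1 (z o) ≤ M := by
      have := (hG z (Ep r z)).2 {o} (singleton_subset_iff.2 hoE)
        (by rw [card_singleton]; exact (mem_filter.1 hoE).2.2)
      rwa [sum_singleton] at this
    calc rw1 (z e) ≤ (1024 : ℝ) ^ (-(Fintype.card α : ℤ) - 1 + (z o).1) :=
          zpow_le_zpow_right₀ (by norm_num) (by omega)
      _ = (1024 : ℝ) ^ (-(Fintype.card α : ℤ) - 1) * rw1 (z o) := zpow_add₀ (by norm_num) _ _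
      _ ≤ _ := mul_le_mul_of_nonneg_left h3 (by positivity)
  have h4 := sum_le_card_nsmul _ _ _ h1
  have h5 : (((gr r z (Ep r z) \ O) \ Fs r O z).card : ℝ) ≤ Fintype.card α := by
    exact_mod_cast card_le_univ _
  have h6 := small (Fintype.card α)
  have h7 : (0 : ℝ) ≤ (1024 : ℝ) ^ (-(Fintype.card α : ℤ) - 1) := by positivity
  have h8 := sum_inter_add_sum_sdiff (gr r z (Ep r z) \ O) (Fs r O z) fun e => rw1 (z e)
  have h9 : ∑ e ∈ (gr r z (Ep r z) \ O) ∩ Fs r O z, rw1 (z e) ≤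
      ∑ e ∈ gr r z (Ep r z) ∩ Fs r O z, rw1 (z e) :=
    sum_le_sum_of_subset_of_nonneg (inter_subset_inter_right sdiff_subset)
      fun e _ _ => (rw1_pos _).le
  rw [nsmul_eq_mul] at h4
  have h10 := mul_le_mul_of_nonneg_right h5 (mul_nonneg h7 hM0)
  have h11 := mul_le_mul_of_nonneg_right h6 hM0
  nlinarith

theorem bad (b : Bas r) (E : Finset α) : ∃ B : Finset α → ℝ, (∀ O, 0 ≤ B O) ∧
    (∀ O, ¬ ((O ∩ E).Nonempty ∨ E.card ≤ 1) → B O = 1) ∧ Ex (1 / 2) B ≤ 1 / 4 := by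
  by_cases h : E.card ≤ 1
  · exact ⟨fun _ => 0, fun _ => le_rfl, fun O hO => absurd (Or.inr h) hO, by
      rw [b.E.const]; norm_num⟩
  · refine ⟨fun O => 1 ^ (E \ O).card * 0 ^ (E ∩ O).card, fun O => by positivity,
      fun O hO => ?_, ?_⟩
    · have : E ∩ O = ∅ := by
        rw [inter_comm]; exact not_nonempty_iff_eq_empty.1 fun h' => hO (Or.inl h')
      simp [this]
    · rw [b.E.prod]
      calc ((1 - 1 / 2) * 1 + 1 / 2 * 0 : ℝ) ^ E.card ≤ ((1 - 1 / 2) * 1 + 1 / 2 * 0 : ℝ) ^ 2 :=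
            pow_le_pow_of_le_one (by norm_num) (by norm_num) (by omega)
        _ = 1 / 4 := by norm_num

end Filt_

theorem t_Filt (b : Bas r) (hG : StGreedy r) : StFilt r := by
  intro z
  obtain ⟨B, hB0, hB1, hB⟩ := bad b (Ep r z)
  have hk := keep b hG z
  have ho := ex_out b (fun e => rw1 (z e)) (gr r z (Ep r z))
  have hle : ∀ O, ∑ e ∈ gr r z (Ep r z) \ O, rw1 (z e) ≤ ∑ e ∈ gr r z (Ep r z), rw1 (z e) :=
    fun O => sum_le_sum_of_subset_of_nonneg sdiff_subset fun e _ _ => (rw1_pos _).le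
  have hF : Ex (1 / 2) (fun O => ∑ e ∈ Fp r z O, rw1 (z e)) ≤ ∑ e ∈ gr r z (Ep r z), rw1 (z e) := by
    rw [ex_Fp b, ← b.E.const (1 / 2) (∑ e ∈ gr r z (Ep r z), rw1 (z e))]
    exact b.E.mono (by norm_num) (by norm_num) fun O => (hG z (Ep r z)).2 _
      ((filter_subset _ _).trans inter_subset_right) (hG z _).1
  generalize hM : ∑ e ∈ gr r z (Ep r z), rw1 (z e) = M at *
  have hM0 : 0 ≤ M := hM ▸ sum_nonneg fun e _ => (rw1_pos _).le
  refine le_trans ?_ (b.E.mono (by norm_num) (by norm_num)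
    (f := fun O => 8 * ∑ e ∈ gr r z (Ep r z) \ O, rw1 (z e) - M / 128 -
      ∑ e ∈ Fp r z O, rw1 (z e) - 8 * M * B O) fun O => ?_)
  · rw [b.E.sub, b.E.sub, b.E.sub, b.E.mul, b.E.mul, b.E.const, ho]
    nlinarith
  · have h1 : ∑ e ∈ Fs r O z, rw1 (z e) ≤ ∑ e ∈ Fp r z O, rw1 (z e) :=
      sum_le_sum_of_subset_of_nonneg (Fs_sub z O) fun e _ _ => (rw1_pos _).le
    have h2 : 0 ≤ ∑ e ∈ Fp r z O, rw1 (z e) := sum_nonneg fun e _ => (rw1_pos _).le
    have h3 := mul_nonneg hM0 (hB0 O)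
    have h4 := hk O
    have h5 := hle O
    split_ifs with h
    · linarith
    · rw [hB1 O h]; linarith

end Vale.Agent.P331.Full
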