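import Vale.Agent.P331.FSt
import Vale.Agent.P331.Main

/-! P331: from codes to laws. -/

namespace Vale.Agent.P331.Full

open MeasureTheory Finset
open scoped NNReal ENNReal

variable {α : Type} [Fintype α] [DecidableEq α]

namespace Final_

theorem meas_code : Measurable code := by
  refine Measurable.prodMk ?_ ?_
  · have h : (fun w : ℝ≥0 => Int.log 1024 (w : ℝ)) = fun w : ℝ≥0 => ⌊Real.logb 1024 (w : ℝ)⌋ := by
      funext w
      have := Real.floor_logb_natCast (b := 1024) (r := (w : ℝ)) w.2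
      rw [← this]
      norm_num
    rw [h]
    refine Measurable.floor ?_
    unfold Real.logb
    exact (Real.measurable_log.comp measurable_coe_nnreal_real).div_const _
  · refine measurable_to_bool ?_
    have : (fun w : ℝ≥0 => decide (0 < w)) ⁻¹' {true} = Set.Ioi 0 := by
      ext w; simp
    rw [this]
    exact measurableSet_Ioi

theorem rw1_le {w : ℝ≥0} (h : (code w).2 = true) : rw1 (code w) ≤ w := by
  have h1 : (0 : ℝ) < w := by simpa [code] using h
  have := Int.zpow_log_le_self (b := 1024) (r := (w : ℝ)) (by norm_num) h1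
  simpa [rw1, code] using this

theorem le_rw1 (w : ℝ≥0) : (w : ℝ) ≤ 1024 * rw1 (code w) := by
  have := Int.lt_zpow_succ_log_self (b := 1024) (by norm_num) (w : ℝ)
  rw [zpow_add_one₀ (by norm_num)] at this
  simp only [rw1, code]
  push_cast at this
  linarith

theorem rw1_pos (x : Code) : 0 < rw1 x := zpow_pos (by norm_num) _

theorem ex_min (r : Finset α → ℕ) (ω : Seed α) (w : α → Code) :
    ∃ l : List α, (∀ e, e ∈ l) ∧ ∀ l' : List α, (∀ e, e ∈ l') →
      ∑ e ∈ oA r ω w w l, rw1 (w e) ≤ ∑ e ∈ oA r ω w w l', rw1 (w e) := by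
  obtain ⟨A, ⟨l, hl, rfl⟩, hA⟩ := Set.exists_min_image
    {A : Finset α | ∃ l : List α, (∀ e, e ∈ l) ∧ oA r ω w w l = A}
    (fun A => ∑ e ∈ A, rw1 (w e)) (Set.toFinite _)
    ⟨_, (univ : Finset α).toList, fun e => by simp, rfl⟩
  exact ⟨l, hl, fun l' hl' => hA _ ⟨l', hl', rfl⟩⟩

/-- The worst order. -/
noncomputable def ordm (r : Finset α → ℕ) (ω : Seed α) (w : α → Code) : List α :=
  Classical.choose (ex_min r ω w)

/-- The gain in the worst order. -/
noncomputable def LB (r : Finset α → ℕ) (ω : Seed α) (w : α → Code) : ℝ :=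
  ∑ e ∈ oA r ω w w (ordm r ω w), rw1 (w e)

theorem LB_nonneg (r : Finset α → ℕ) (ω : Seed α) (w : α → Code) : 0 ≤ LB r ω w :=
  sum_nonneg fun _ _ => (rw1_pos _).le

theorem sw_nonneg (hE : BE α) (ω : Seed α) : 0 ≤ sw ω := by
  have h1 := hE.wt_nonneg (p := 1 / 2) (by norm_num) (by norm_num)
  have h2 := hE.wt_nonneg (p := pc) (by norm_num [pc]) (by norm_num [pc])
  have h3 := hE.wt_nonneg (p := pd) (by norm_num [pd]) (by norm_num [pd])
  exact mul_nonneg (h1 _) (mul_nonneg (h1 _) (mul_nonneg (h2 _) (mul_nonneg (h3 _) (by norm_num))))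

theorem sw_sum (hE : BE α) : ∑ ω : Seed α, sw ω = 1 := by
  have := hE.seed fun _ => 1
  simp only [mul_one] at this
  rw [this]
  norm_num [hE.e3_const, hE.const]

theorem opt_est (M : Matroid α) (hM : StMat M) (hE : BE α) (hO : StOuter (mrk M))
    (v : α → ℝ≥0) : (1 / 2 ^ 64 : ℝ≥0∞) * opt M v ≤
      ∑ ω : Seed α, ENNReal.ofReal (sw ω) * ENNReal.ofReal (LB (mrk M) ω fun e => code (v e)) := by
  rw [opt, ENNReal.mul_iSup]
  refine iSup_le fun I => ?_
  rw [ENNReal.mul_iSup]
  refine iSup_le fun hI => ?_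
  have h1 := hO (fun e => code (v e)) (fun ω => ordm (mrk M) ω fun e => code (v e))
    (I ∩ Ep (mrk M) fun e => code (v e)) (fun ω => (Classical.choose_spec (ex_min _ ω _)).1)
    inter_subset_right ((hM.2 _).1 (hI.subset (coe_subset.2 inter_subset_left)))
  have h2 : ∑ e ∈ I, (v e : ℝ) ≤
      1024 * ∑ e ∈ I ∩ Ep (mrk M) fun e => code (v e), rw1 (code (v e)) := by
    rw [mul_sum, ← sum_inter_add_sum_sdiff I (Ep (mrk M) fun e => code (v e))]
    have h3 : ∑ e ∈ I \ Ep (mrk M) fun e => code (v e), (v e : ℝ) = 0 := by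
      refine sum_eq_zero fun e he => ?_
      have h4 := mem_sdiff.1 he
      have h5 : mrk M {e} = 1 := by
        simpa using (hM.2 {e}).1 (hI.subset (by simpa using h4.1))
      have h6 := h4.2
      simp only [Ep, mem_filter, mem_univ, true_and, h5, and_true, code, decide_eq_true_eq,
        not_lt] at h6
      simpa using h6
    rw [h3, add_zero]
    exact sum_le_sum fun e _ => le_rw1 _
  have h4 : (1 / 2 ^ 64 : ℝ≥0∞) * ∑ e ∈ I, (v e : ℝ≥0∞) =
      ENNReal.ofReal (1 / 2 ^ 64 * ∑ e ∈ I, (v e : ℝ)) := by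
    rw [ENNReal.ofReal_mul (by positivity), ENNReal.ofReal_sum_of_nonneg fun e _ => (v e).coe_nonneg]
    simp only [ENNReal.ofReal_coe_nnreal]
    congr 1
    rw [ENNReal.ofReal_div_of_pos (by positivity), ENNReal.ofReal_pow (by norm_num)]
    simp
  have h5 : ∑ ω : Seed α, ENNReal.ofReal (sw ω) *
      ENNReal.ofReal (LB (mrk M) ω fun e => code (v e)) =
      ENNReal.ofReal (∑ ω : Seed α, sw ω * LB (mrk M) ω fun e => code (v e)) := by
    rw [ENNReal.ofReal_sum_of_nonneg fun ω _ => mul_nonneg (sw_nonneg hE ω) (LB_nonneg _ _ _)]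
    exact sum_congr rfl fun ω _ => (ENNReal.ofReal_mul (sw_nonneg hE ω)).symm
  rw [h4, h5]
  refine ENNReal.ofReal_le_ofReal (le_trans ?_ h1)
  linarith

end Final_

open Final_

theorem t_Final (M : Matroid α) (hM : StMat M) (hE : BE α) (hO : StOuter (mrk M))
    (hK : StMask (mrk M)) (hA : StAcc (mrk M)) :
    ∃ (ρ : Type) (_ : MeasurableSpace ρ) (ν : Measure ρ) (_ : IsProbabilityMeasure ν)
      (r : Rule M ρ), ∀ D : α → Measure ℝ≥0, (∀ e, IsProbabilityMeasure (D e)) →
        ∀ π : Adv α ρ, (1 / 2 ^ 64 : ℝ≥0∞) * ∫⁻ q, opt M q.2.2 ∂law ν D ≤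
          ∫⁻ q, r.gain q (π.ord q) ∂law ν D := by
  let _ : MeasurableSpace (Seed α) := ⊤
  have _ : DiscreteMeasurableSpace (Seed α) := ⟨fun _ => trivial⟩
  have hc : Measurable fun (v : α → ℝ≥0) e => code (v e) :=
    measurable_pi_lambda _ fun e => meas_code.comp (measurable_pi_apply e)
  have hset : ∀ (ω : Seed α) (S V : α → ℝ≥0) (l : List α),
      {e | e ∈ l ∧ accD (mrk M) ω (fun f => code (S f))
        ((past l V e).map fun q => (q.1, code q.2)) e (code (V e))} =
      (oA (mrk M) ω (fun f => code (S f)) (fun f => code (V f)) l : Set α) := by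
    intro ω S V l
    ext e
    rw [mem_coe, (hA ω _ _ l).1 e]
    simp only [past, List.map_map]
    rfl
  let R : Rule M (Seed α) :=
    { acc := fun ω S p e x => accD (mrk M) ω (fun f => code (S f))
        (p.map fun q => (q.1, code q.2)) e (code x)
      meas := fun l e => by
        have h1 : Measurable fun q : Out α (Seed α) =>
            (q.1, (fun f => code (q.2.1 f)), fun f => code (q.2.2 f)) :=
          measurable_fst.prodMk ((hc.comp (measurable_fst.comp measurable_snd)).prodMk
            (hc.comp (measurable_snd.comp measurable_snd)))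
        have h2 := h1 (MeasurableSet.of_discrete (s := {t : Seed α × (α → Code) × (α → Code) |
          accD (mrk M) t.1 t.2.1 (l.map fun f => (f, t.2.2 f)) e (t.2.2 e)}))
        simp only [List.map_map]
        exact h2
      indep := fun ω S V l _ => by
        rw [hset]
        exact (hM.2 _).2 (hA ω _ _ l).2 }
  let ν : Measure (Seed α) := ∑ ω, ENNReal.ofReal (sw ω) • Measure.dirac ω
  have hν : ∀ f : Seed α → ℝ≥0∞, ∫⁻ ω, f ω ∂ν = ∑ ω, ENNReal.ofReal (sw ω) * f ω := by
    intro f
    simp only [ν, lintegral_finsetSum_measure, lintegral_smul_measure, lintegral_dirac, smul_eq_mul]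
  have hP : IsProbabilityMeasure ν := ⟨by
    rw [← lintegral_one, hν]
    simp only [mul_one]
    rw [← ENNReal.ofReal_sum_of_nonneg fun ω _ => sw_nonneg hE ω, sw_sum hE, ENNReal.ofReal_one]⟩
  refine ⟨Seed α, inferInstance, ν, hP, R, fun D _ π => ?_⟩
  have hg := meas_gain R π
  have ho : Measurable (opt M) := meas_opt
  have e1 : ∫⁻ q, opt M q.2.2 ∂law ν D = ∫⁻ v, opt M v ∂Measure.pi D :=
    (measurePreserving_snd.comp measurePreserving_snd).lintegral_comp ho
  have hL : ∀ ω, Measurable fun v : α → ℝ≥0 =>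
      ENNReal.ofReal (LB (mrk M) ω fun e => code (v e)) := fun ω =>
    (Measurable.of_discrete (f := fun w : α → Code => ENNReal.ofReal (LB (mrk M) ω w))).comp hc
  have e2 : ∀ ω : Seed α, ∫⁻ v, ENNReal.ofReal (LB (mrk M) ω fun e => code (v e)) ∂Measure.pi D ≤
      ∫⁻ p, R.gain (ω, p) (π.ord (ω, p)) ∂(Measure.pi D).prod (Measure.pi D) := by
    intro ω
    rw [← (measurePreserving_fst.comp
      (swap_pres D fun e => decide (e ∉ used ω))).lintegral_comp (hL ω)]
    refine lintegral_mono fun p => ?_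
    have h1 := hK ω (fun f => code (p.1 f)) (fun f => code (p.2 f))
      (fun f => code (val p (fun e => decide (e ∉ used ω)) f)) (π.ord (ω, p))
      (fun e he => by simp [val, he]) (fun e he => by simp [val, he])
    have h2 := (Classical.choose_spec (ex_min (mrk M) ω
      fun f => code (val p (fun e => decide (e ∉ used ω)) f))).2 _ (π.all (ω, p))
    rw [← h1.1] at h2
    refine (ENNReal.ofReal_le_ofReal h2).trans ?_
    have h3 : R.gain (ω, p) (π.ord (ω, p)) = ∑ e ∈ oA (mrk M) ω (fun f => code (p.1 f))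
        (fun f => code (p.2 f)) (π.ord (ω, p)), (p.2 e : ℝ≥0∞) := by
      simp only [Rule.gain, R]
      rw [hset]
      simp only [Set.indicator_apply, mem_coe]
      rw [← sum_filter]
      simp
    rw [h3, ENNReal.ofReal_sum_of_nonneg fun e _ => (rw1_pos _).le]
    refine sum_le_sum fun e he => ?_
    have h4 := h1.2 e he
    have h5 : val p (fun e => decide (e ∉ used ω)) e = p.2 e := by simp [val, h4.1]
    rw [h5, ← ENNReal.ofReal_coe_nnreal]
    exact ENNReal.ofReal_le_ofReal (rw1_le h4.2)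
  rw [e1, law, lintegral_prod _ hg.aemeasurable, hν, ← lintegral_const_mul _ ho]
  refine (lintegral_mono fun v => opt_est M hM hE hO v).trans ?_
  rw [lintegral_finsetSum _ fun ω _ => (hL ω).const_mul _]
  refine sum_le_sum fun ω _ => ?_
  rw [lintegral_const_mul _ (hL ω)]
  exact mul_le_mul_right (e2 ω) _

end Vale.Agent.P331.Full
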