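import Vale.Agent.P331.FSt

/-! P331: the greedy rule in the layers. -/

namespace Vale.Agent.P331.Full

open Finset

variable {α : Type} [Fintype α] [DecidableEq α] {r : Finset α → ℕ}

namespace Grd_

/-- The elements accepted in one layer. -/
def lay (r : Finset α → ℕ) (X W : Finset α) (l : List α) : Finset α :=
  l.toFinset.filter fun e => e ∈ W ∧ e ∉ cl r (X ∪ (W ∩ bef l e))

omit [Fintype α] in
theorem bef_self (a : α) (l : List α) : bef (a :: l) a = ∅ := by simp [bef]

omit [Fintype α] in
theorem bef_ne {a e : α} (h : e ≠ a) (l : List α) : bef (a :: l) e = insert a (bef l e) := by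
  simp [bef, List.takeWhile_cons, h.symm]

theorem mem_lay {X W : Finset α} {l : List α} {e : α} :
    e ∈ lay r X W l ↔ e ∈ l ∧ e ∈ W ∧ e ∉ cl r (X ∪ (W ∩ bef l e)) := by
  simp only [lay, mem_filter, List.mem_toFinset]

theorem lay_sub (X W : Finset α) (l : List α) : lay r X W l ⊆ W := fun _ h => (mem_lay.1 h).2.1

theorem lay_not (b : Bas r) {X W : Finset α} {l : List α} {e : α} (h : e ∈ lay r X W l) :
    e ∉ X := fun k => (mem_lay.1 h).2.2 (b.R.sub_cl _ (mem_union_left _ k))

theorem lay_out {X W : Finset α} {a : α} (h : a ∉ W) (l : List α) :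
    lay r X W (a :: l) = lay r X W l := by
  ext e
  by_cases k : e = a
  · simp [mem_lay, k, h]
  · simp only [mem_lay, bef_ne k, inter_insert_of_notMem h, List.mem_cons, k, false_or]

theorem lay_in {X W : Finset α} {a e : α} (h : a ∈ W) (l : List α) (k : e ≠ a) :
    e ∈ lay r X W (a :: l) ↔ e ∈ lay r (insert a X) W l := by
  simp only [mem_lay, bef_ne k, inter_insert_of_mem h, union_insert, insert_union, List.mem_cons, k,
    false_or]

theorem lay_head {X W : Finset α} {a : α} (h : a ∈ W) (l : List α) :
    a ∈ lay r X W (a :: l) ↔ a ∉ cl r X := by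
  simp [mem_lay, bef_self, h]

theorem lay_rank (b : Bas r) (W : Finset α) (l : List α) : ∀ X : Finset α,
    r (X ∪ lay r X W l) = r X + (lay r X W l).card ∧
      r (X ∪ lay r X W l) = r (X ∪ (W ∩ l.toFinset)) := by
  induction l with
  | nil => intro X; simp [lay]
  | cons a l ih =>
    intro X
    by_cases h : a ∈ W
    · obtain ⟨i1, i2⟩ := ih (insert a X)
      have n : a ∉ lay r (insert a X) W l := fun k => lay_not b k (mem_insert_self _ _)
      rw [List.toFinset_cons, inter_insert_of_mem h, union_insert, ← insert_union, ← i2]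
      by_cases k : a ∈ cl r X
      · have e : lay r X W (a :: l) = lay r (insert a X) W l := by
          ext e
          by_cases q : e = a
          · rw [q, lay_head h]
            simp [k, n]
          · exact lay_in h l q
        have e2 : r (insert a X ∪ lay r (insert a X) W l) = r (X ∪ lay r (insert a X) W l) := by
          rw [insert_union]
          exact b.R.mem_cl.1 (b.R.cl_mono subset_union_left k)
        rw [e, ← e2, i1, b.R.mem_cl.1 k]
        exact ⟨rfl, rfl⟩
      · have e : lay r X W (a :: l) = insert a (lay r (insert a X) W l) := by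
          ext e
          by_cases q : e = a
          · rw [q, lay_head h]
            simp [k]
          · rw [lay_in h l q, mem_insert]
            simp [q]
        rw [e, union_insert, ← insert_union, card_insert_of_notMem n, i1, b.R.not_mem_cl k]
        exact ⟨by omega, rfl⟩
    · rw [lay_out h, List.toFinset_cons, inter_insert_of_notMem h]
      exact ih X

theorem mem_acc {X W : ℕ → Finset α} {ε : ℕ} {l : List α} {e : α} :
    e ∈ accS r X W ε l ↔ ∃ s, s % 2 = ε ∧ e ∈ lay r (X (s + 2)) (W s) l := by
  simp only [accS, mem_filter, List.mem_toFinset, mem_lay]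
  exact ⟨fun ⟨h, s, h1, h2⟩ => ⟨s, h1, h, h2⟩, fun ⟨s, h1, h, h2⟩ => ⟨h, s, h1, h2⟩⟩

theorem ind_k (b : Bas r) {X W : ℕ → Finset α} (ε : ℕ) (l : List α) (h1 : ∀ s, X (s + 2) ⊆ X s)
    (h2 : ∀ s, W s ⊆ X s) (k : ℕ) :
    r (X (ε + 2 * k) ∪ (range k).biUnion fun i => lay r (X (ε + 2 * i + 2)) (W (ε + 2 * i)) l) =
      r (X (ε + 2 * k)) +
        ((range k).biUnion fun i => lay r (X (ε + 2 * i + 2)) (W (ε + 2 * i)) l).card := by
  induction k with
  | zero => simp
  | succ k ih =>
    rw [range_add_one, biUnion_insert, show ε + 2 * (k + 1) = ε + 2 * k + 2 by ring]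
    have a1 := (lay_rank b (W (ε + 2 * k)) l (X (ε + 2 * k + 2))).1
    have a2 := b.R.ind_sub ih
      (union_subset (h1 _) ((lay_sub (r := r) (X (ε + 2 * k + 2)) _ l).trans (h2 _))) Subset.rfl
    rw [union_assoc] at a2
    generalize lay r (X (ε + 2 * k + 2)) (W (ε + 2 * k)) l = A at a1 a2
    generalize ((range k).biUnion fun i => lay r (X (ε + 2 * i + 2)) (W (ε + 2 * i)) l) = U at a2
    have a3 := b.R.union_le (X (ε + 2 * k + 2)) (A ∪ U)
    have a4 := card_le_card (sdiff_subset (s := A ∪ U) (t := X (ε + 2 * k + 2)))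
    have a5 := card_union_le A U
    omega

omit [Fintype α] [DecidableEq α] in
theorem anti {X : ℕ → Finset α} (h1 : ∀ s, X (s + 2) ⊆ X s) (s i : ℕ) : X (s + 2 * i) ⊆ X s := by
  induction i with
  | zero => exact Subset.rfl
  | succ i ih => exact (h1 (s + 2 * i)).trans ih

theorem one_count (b : Bas r) (X W : Finset α) {l : List α} (hl : ∀ e, e ∈ l) (lev : α → ℕ)
    (h : ℕ) : rc r (sl lev W h) (X ∪ W.filter fun e => lev e < h) ≤
      (((lay r X W l).filter fun e => h ≤ lev e).card : ℝ) := by
  obtain ⟨a1, a2⟩ := lay_rank b W l X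
  rw [inter_eq_left.2 fun e _ => List.mem_toFinset.2 (hl e)] at a2
  have a3 := b.R.ind_sub a1 Subset.rfl (filter_subset (fun e => lev e < h) _)
  have a4 := b.k.mono (union_subset_union_right (s := X)
    (filter_subset_filter (fun e => lev e < h) (lay_sub (r := r) X W l)))
  have a5 := card_filter_add_card_filter_not (s := lay r X W l) fun e => lev e < h
  have a6 : r ((X ∪ W.filter fun e => lev e < h) ∪ sl lev W h) ≤ r (X ∪ W) :=
    b.k.mono (union_subset (union_subset_union_right (filter_subset _ _))
      ((filter_subset _ _).trans subset_union_right))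
  simp only [not_lt] at a5
  rw [rc, sub_le_iff_le_add]
  exact_mod_cast (by omega)

end Grd_

open Grd_

theorem t_Ind (b : Bas r) : StInd r := by
  intro X W ε l h1 h2
  choose! f hf using fun e (h : e ∈ accS r X W ε l) => mem_acc.1 h
  have a := b.R.ind_sub (ind_k b ε l h1 h2 ((accS r X W ε l).sup f + 1)) (empty_subset _)
    (Z := accS r X W ε l) fun e he => by
      have e1 := (hf e he).1
      have e2 : f e ≤ (accS r X W ε l).sup f := le_sup he
      refine mem_biUnion.2 ⟨f e / 2, mem_range.2 (by omega), ?_⟩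
      rw [show ε + 2 * (f e / 2) = f e by omega]
      exact (hf e he).2
  rwa [empty_union, b.k.empty, zero_add] at a

theorem t_Count (b : Bas r) : StCount r := by
  intro X W ε l lev h S h1 h2 hl hS
  have d : ∀ s ∈ S, ∀ s' ∈ S, s < s' →
      Disjoint (lay r (X (s + 2)) (W s) l) (lay r (X (s' + 2)) (W s') l) := fun s hs s' hs' k => by
    refine disjoint_left.2 fun e he he' => lay_not b he ?_
    have e1 := hS s hs
    have e2 := hS s' hs'
    have e3 := h2 s' (lay_sub _ _ _ he')
    rw [show s' = s + 2 + 2 * ((s' - s) / 2 - 1) by omega] at e3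
    exact anti h1 _ _ e3
  refine (sum_le_sum fun s _ => one_count b (X (s + 2)) (W s) hl lev h).trans ?_
  rw [← Nat.cast_sum, Nat.cast_le, ← card_biUnion]
  · refine card_le_card fun e he => ?_
    obtain ⟨s, hs, k⟩ := mem_biUnion.1 he
    exact mem_filter.2 ⟨mem_acc.2 ⟨s, hS s hs, (mem_filter.1 k).1⟩, (mem_filter.1 k).2⟩
  · intro s hs s' hs' k
    refine disjoint_filter_filter ?_
    rcases lt_or_gt_of_ne k with q | q
    · exact d s hs s' hs' q
    · exact (d s' hs' s hs q).symm

end Vale.Agent.P331.Full
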