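import Vale.Agent.P331.FSt

/-! P331: low density of the sample gives low density of the other elements. -/

namespace Vale.Agent.P331.Full

open Finset

variable {α : Type} [Fintype α] [DecidableEq α] {r : Finset α → ℕ}

namespace Hold_

/-- The chain of flats. -/
def ch (S Q : ℕ → Finset α) (m t : ℕ) : Finset α :=
  if t < 2 * m then (if t % 2 = 0 then S (t / 2) else Q (t / 2)) else ∅

omit [Fintype α] [DecidableEq α] in
theorem ch_even (S Q : ℕ → Finset α) {m i : ℕ} (h : i < m) : ch S Q m (2 * i) = S i := by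
  rw [ch, if_pos (by omega), if_pos (by omega), show 2 * i / 2 = i by omega]

omit [Fintype α] [DecidableEq α] in
theorem ch_odd (S Q : ℕ → Finset α) {m i : ℕ} (h : i < m) : ch S Q m (2 * i + 1) = Q i := by
  rw [ch, if_pos (by omega), if_neg (by omega), show (2 * i + 1) / 2 = i by omega]

omit [Fintype α] [DecidableEq α] in
theorem ch_big (S Q : ℕ → Finset α) {m t : ℕ} (h : 2 * m ≤ t) : ch S Q m t = ∅ := by
  rw [ch, if_neg (by omega)]

theorem cases2 (t : ℕ) : ∃ i, t = 2 * i ∨ t = 2 * i + 1 := ⟨t / 2, by omega⟩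

omit [Fintype α] [DecidableEq α] in
theorem ch_anti {S Q : ℕ → Finset α} (m : ℕ) (h1 : ∀ i, Q i ⊆ S i) (h2 : ∀ i, S (i + 1) ⊆ Q i) :
    Antitone (ch S Q m) := by
  refine antitone_nat_of_succ_le fun t => ?_
  by_cases ht : 2 * m ≤ t + 1
  · rw [ch_big S Q ht]
    exact empty_subset _
  obtain ⟨i, rfl | rfl⟩ := cases2 t
  · rw [ch_even S Q (by omega), ch_odd S Q (by omega)]
    exact h1 i
  · rw [ch_odd S Q (by omega), show 2 * i + 1 + 1 = 2 * (i + 1) by ring, ch_even S Q (by omega)]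
    exact h2 i

theorem sum_two (f : ℕ → ℝ) (m : ℕ) :
    ∑ t ∈ range (2 * m), f t = ∑ i ∈ range m, (f (2 * i) + f (2 * i + 1)) := by
  induction m with
  | zero => simp
  | succ m ih =>
    rw [show 2 * (m + 1) = 2 * m + 1 + 1 by ring, sum_range_succ, sum_range_succ, sum_range_succ,
      ih, add_assoc]

theorem dv_real (b : Bas r) (D : Finset α) {B T : Finset α} (h : B ⊆ T) :
    ((D ∩ T).card : ℝ) - 16384 * r T ≤ (D ∩ ex r D B).card - 16384 * r (ex r D B) := by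
  have := b.X.dv_le D h
  rw [dv, dv] at this
  exact_mod_cast this

theorem point (b : Bas r) (hS : StSched r) (G D : Finset α) (K Y : ℕ → Finset α) (m : ℕ)
    (hK : ∀ t t', t ≤ t' → K t' ⊆ K t) (h1 : ∀ i, Y i ⊆ (G \ D) \ ex r (G ∩ D) (K i))
    (h2 : ∀ i, Y (i + 1) ⊆ ex r (G ∩ D) (K i)) :
    ∃ (J J' : Finset α) (pos τ : α → ℕ), J ⊆ G ∧ J' ⊆ J ∧ Sched r (fun t => K (t / 2)) J pos τ ∧
      ∑ i ∈ range m, ((Y i).card : ℝ) ≤
        ((J'.biUnion (own r G (fun t => K (t / 2)) J pos τ) \ D).card : ℝ) ∧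
      ((J'.biUnion (own r G (fun t => K (t / 2)) J pos τ) ∩ D).card : ℝ) ≤
        16384 * ∑ i ∈ range m, rc r (Y i) (ex r (G ∩ D) (K i)) ∧
      (J.card : ℝ) ≤ ∑ i ∈ range m, rc r (Y i) (ex r (G ∩ D) (K i)) + 1 / 16384 * G.card := by
  obtain ⟨Q, hQ⟩ : ∃ Q : ℕ → Finset α, ∀ i, Q i = ex r (G ∩ D) (K i) := ⟨_, fun _ => rfl⟩
  obtain ⟨S, hSd⟩ : ∃ S : ℕ → Finset α, ∀ i, S i = cl r (Q i ∪ Y i) := ⟨_, fun _ => rfl⟩
  simp only [← hQ] at h1 h2 ⊢
  have cQ : ∀ i, cl r (Q i) = Q i := fun i => by rw [hQ, b.X.cl_ex]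
  have aQ : ∀ i j, i ≤ j → Q j ⊆ Q i := fun i j h => by
    rw [hQ, hQ]
    exact b.X.ex_mono _ (hK i j h)
  have KQ : ∀ i, K i ⊆ Q i := fun i => by
    rw [hQ]
    exact b.X.sub_ex _ _
  have US : ∀ i, Q i ∪ Y i ⊆ S i := fun i => by
    rw [hSd]
    exact b.R.sub_cl _
  have QS : ∀ i, Q i ⊆ S i := fun i => subset_union_left.trans (US i)
  have SQ : ∀ i, S (i + 1) ⊆ Q i := fun i => by
    rw [hSd, ← cQ i]
    exact b.R.cl_mono (union_subset (aQ _ _ (Nat.le_succ i)) (h2 i))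
  have rS : ∀ i, (r (S i) : ℝ) - r (Q i) = rc r (Y i) (Q i) := fun i => by
    rw [hSd, b.R.r_cl, rc]
  have dvQ : ∀ i T, K i ⊆ T →
      ((G ∩ D ∩ T).card : ℝ) - 16384 * r T ≤ (G ∩ D ∩ Q i).card - 16384 * r (Q i) :=
    fun i T h => by
      rw [hQ]
      exact dv_real b _ h
  have anti := ch_anti m QS SQ
  obtain ⟨J, pos, τ, hJ, hs, hτ, hc, ho, hx⟩ := hS G (fun t => K (t / 2)) (ch S Q m) (2 * m)
    (fun t t' h => hK _ _ (Nat.div_le_div_right h)) (fun t t' h => anti h)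
    (fun t ht => by
      obtain ⟨i, rfl | rfl⟩ := cases2 t
      · rw [ch_even S Q (by omega), show 2 * i / 2 = i by omega]
        exact (KQ i).trans (QS i)
      · rw [ch_odd S Q (by omega), show (2 * i + 1) / 2 = i by omega]
        exact KQ i)
    (fun t ht => by
      obtain ⟨i, rfl | rfl⟩ := cases2 t
      · rw [ch_even S Q (by omega), hSd, b.R.cl_cl]
      · rw [ch_odd S Q (by omega), cQ])
    (ch_big S Q le_rfl)
  refine ⟨J, J.filter fun j => τ j % 2 = 0, pos, τ, hJ, filter_subset _ _, hs, ?_, ?_, ?_⟩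
  · have hd : ∀ i j, i < j → Disjoint (Y i) (Y j) := fun i j h => by
      obtain ⟨k, rfl⟩ : ∃ k, j = k + 1 := ⟨j - 1, by omega⟩
      exact disjoint_left.2 fun x hi hj =>
        (mem_sdiff.1 (h1 i hi)).2 (aQ i k (by omega) (h2 k hj))
    rw [← Nat.cast_sum, ← card_biUnion fun i _ j _ h =>
      (lt_or_gt_of_ne h).elim (hd i j) fun h' => (hd j i h').symm]
    refine Nat.cast_le.2 (card_le_card fun x hx' => ?_)
    obtain ⟨i, hi, hxi⟩ := mem_biUnion.1 hx'
    have hi' := mem_range.1 hi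
    obtain ⟨h3, h4⟩ := mem_sdiff.1 (h1 i hxi)
    obtain ⟨h5, h6⟩ := mem_sdiff.1 h3
    obtain ⟨j, hj, e, hj'⟩ := hx (2 * i) (by omega) x
      (by rw [ch_even S Q hi']; exact mem_inter.2 ⟨h5, US i (mem_union_right _ hxi)⟩) fun hm => by
        rw [ch_odd S Q hi', show 2 * i / 2 = i by omega] at hm
        exact h4 (cQ i ▸ b.R.cl_mono (union_subset (KQ i) inter_subset_right) hm)
    exact mem_sdiff.2 ⟨mem_biUnion.2 ⟨j, mem_filter.2 ⟨hj, by omega⟩, hj'⟩, h6⟩
  · have hsub : (J.filter fun j => τ j % 2 = 0).biUnion (own r G (fun t => K (t / 2)) J pos τ) ∩ D ⊆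
        (range m).biUnion fun i => (G ∩ D ∩ S i) \ (G ∩ D ∩ Q i) := fun x hx' => by
      obtain ⟨h3, h4⟩ := mem_inter.1 hx'
      obtain ⟨j, hj, hxj⟩ := mem_biUnion.1 h3
      obtain ⟨hj1, hj2⟩ := mem_filter.1 hj
      have h5 := ho j hj1 hxj
      have h6 := hτ j hj1
      obtain ⟨i, e⟩ : ∃ i, τ j = 2 * i := ⟨τ j / 2, by omega⟩
      rw [e, ch_even S Q (by omega), ch_odd S Q (by omega), mem_sdiff] at h5
      have h7 : x ∈ G := (mem_inter.1 (mem_sdiff.1 hxj).1).1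
      exact mem_biUnion.2 ⟨i, mem_range.2 (by omega), mem_sdiff.2
        ⟨mem_inter.2 ⟨mem_inter.2 ⟨h7, h4⟩, h5.1⟩, fun h => h5.2 (mem_inter.1 h).2⟩⟩
    refine (Nat.cast_le.2 ((card_le_card hsub).trans card_biUnion_le)).trans ?_
    rw [Nat.cast_sum, mul_sum]
    refine sum_le_sum fun i _ => ?_
    rw [cast_card_sdiff (inter_subset_inter_left (QS i)), ← rS]
    linarith [dvQ i (S i) ((KQ i).trans (QS i))]
  · rw [card_eq_sum_card_fiberwise (f := τ) (t := range (2 * m)) fun j hj =>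
      mem_coe.2 (mem_range.2 (hτ j hj)), Nat.cast_sum, sum_two]
    have tel : ∑ i ∈ range m, (((G ∩ D ∩ ch S Q m (2 * i)).card : ℝ) -
        (G ∩ D ∩ ch S Q m (2 * (i + 1))).card) ≤ G.card := by
      rw [sum_range_sub' fun i => ((G ∩ D ∩ ch S Q m (2 * i)).card : ℝ)]
      have : (G ∩ D ∩ ch S Q m (2 * 0)).card ≤ G.card :=
        card_le_card (inter_subset_left.trans inter_subset_left)
      have h3 : ((G ∩ D ∩ ch S Q m (2 * 0)).card : ℝ) ≤ G.card := by exact_mod_cast this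
      exact (sub_le_self _ (Nat.cast_nonneg _)).trans h3
    refine le_trans ?_ (add_le_add le_rfl (mul_le_mul_of_nonneg_left tel (by norm_num)))
    rw [mul_sum, ← sum_add_distrib]
    refine sum_le_sum fun i hi => ?_
    have hi' := mem_range.1 hi
    rw [hc _ (by omega), hc _ (by omega), ch_even S Q hi', ch_odd S Q hi', ← rS,
      show 2 * i / 2 = i by omega, show (2 * i + 1) / 2 = i by omega,
      show 2 * i + 1 + 1 = 2 * (i + 1) by ring]
    have a1 : (r (K i ∪ G ∩ S i) : ℝ) ≤ r (S i) := Nat.cast_le.2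
      (b.k.mono (union_subset ((KQ i).trans (QS i)) inter_subset_right))
    have a2 := dvQ i (K i ∪ G ∩ ch S Q m (2 * (i + 1))) subset_union_left
    have a3 : ((G ∩ D ∩ ch S Q m (2 * (i + 1))).card : ℝ) ≤
        (G ∩ D ∩ (K i ∪ G ∩ ch S Q m (2 * (i + 1)))).card := Nat.cast_le.2
      (card_le_card fun x hx' => mem_inter.2 ⟨(mem_inter.1 hx').1, mem_union_right _
        (mem_inter.2 ⟨(mem_inter.1 (mem_inter.1 hx').1).1, (mem_inter.1 hx').2⟩)⟩)
    have a4 : ((G ∩ D ∩ Q i).card : ℝ) ≤ (G ∩ D ∩ S i).card := Nat.cast_le.2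
      (card_le_card (inter_subset_inter_left (QS i)))
    linarith

end Hold_

theorem t_Hold (b : Bas r) (hS : StSched r) (hM : StMom r) : StHold r := by
  intro G K Y m hK h1 h2
  choose J J' pos τ a1 a2 a3 a4 a5 a6 using fun D =>
    Hold_.point b hS G D K (Y D) m hK (h1 D) (h2 D)
  have k := hM G (fun t => K (t / 2)) J J' pos τ
    (fun t t' h => hK _ _ (Nat.div_le_div_right h)) a1 a2 a3
  have p0 : (0 : ℝ) ≤ 1 / 2 := by norm_num
  have p1 : (1 / 2 : ℝ) ≤ 1 := by norm_num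
  have e4 := b.E.mono p0 p1 a4
  have e5 := b.E.mono p0 p1 a5
  have e6 := b.E.mono p0 p1 a6
  have e0 := b.E.mono p0 p1 (f := fun _ => 0)
    (g := fun D => ∑ i ∈ range m, rc r (Y D i) (ex r (G ∩ D) (K i)))
    fun D => sum_nonneg fun i _ => b.R.rc_nonneg _ _
  rw [b.E.mul] at e5
  rw [b.E.add, b.E.const] at e6
  rw [b.E.const] at e0
  have g0 : (0 : ℝ) ≤ G.card := Nat.cast_nonneg _
  linarith

end Vale.Agent.P331.Full
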