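import Vale.Agent.P331.FSt

/-! P331: the estimate for one level, and the sum over the levels. -/

namespace Vale.Agent.P331.Full

open Finset

variable {α : Type} [Fintype α] [DecidableEq α] {r : Finset α → ℕ}

namespace Level_

theorem guard (E : BE α) (F : Finset α) (p : α → Prop) [DecidablePred p] :
    (E3 fun Dc Gc _ => ((((F \ Dc) ∩ Gc).filter p).card : ℝ)) ≤ pc * (F.filter p).card := by
  refine (E.e3_mono (g := fun _ Gc _ => ((F.filter p ∩ Gc).card : ℝ)) fun a c _ =>
    Nat.cast_le.2 (card_le_card fun e he => ?_)).trans (le_of_eq ?_)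
  · simp only [mem_filter, mem_inter, mem_sdiff] at he ⊢
    exact ⟨⟨he.1.1.1, he.2⟩, he.1.2⟩
  · simp only [E3, E.const, E.card_inter]

omit [Fintype α] [DecidableEq α] in
theorem geo (A : Finset α) (k : α → ℕ) (H : ℕ) :
    ∑ h ∈ range H, (1024 : ℝ) ^ h * (A.filter fun e => h < k e).card ≤
      (∑ e ∈ A, (1024 : ℝ) ^ k e) / 1023 := by
  simp only [card_filter, Nat.cast_sum, mul_sum, sum_div, Nat.cast_ite, mul_ite, Nat.cast_one,
    Nat.cast_zero, mul_one, mul_zero]
  rw [sum_comm]
  refine sum_le_sum fun e _ => ?_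
  rw [← sum_filter]
  refine (sum_le_sum_of_subset_of_nonneg (t := range (k e))
    (fun h hh => mem_range.2 (mem_filter.1 hh).2) fun _ _ _ => by positivity).trans ?_
  rw [geom_sum_eq (by norm_num)]
  linarith

omit [Fintype α] [DecidableEq α] in
theorem slice (lev : α → ℕ) {A : Finset α} {H : ℕ} (hA : ∀ e ∈ A, lev e < H) :
    ∑ h ∈ range H, (1024 : ℝ) ^ h * (sl lev A h).card = ∑ e ∈ A, (1024 : ℝ) ^ lev e := by
  rw [← sum_fiberwise_of_maps_to' (fun e he => mem_range.2 (hA e he)) fun h => (1024 : ℝ) ^ h]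
  simp only [sl, sum_const, nsmul_eq_mul, mul_comm]

end Level_

open Level_ in
theorem t_Level (b : Bas r) (h1 : StYlow r) (h2 : StYup r) (h3 : StLoss r) (h4 : StThin r) :
    StLevel r := by
  intro F lev I h hI hr
  have e1 := h1 F lev I h hI hr
  have e2 := h2 F lev h
  have e3 := b.E.e3_mono fun a c d => h3 F lev a c d h
  rw [b.E.e3_sub, b.E.e3_sub, b.E.e3_sub, b.E.e3_mul, b.E.e3_const] at e3
  have e4 : (E3 fun a c _ => ((sC F lev a c h).card : ℝ)) ≤ pc * (sl lev F h).card :=
    guard b.E F fun e => lev e = h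
  have e5 := guard b.E F fun e => h < lev e
  have e6 : pd * (E3 fun a c d => ∑ s ∈ range (h + 1),
      rc r (cY r F lev a c d h s \ c) (cT r F lev a c d h s)) ≤
      E3 fun a c d => cg r F lev a c d h := by
    simp only [E3, ← b.E.mul (1 / 2), ← b.E.mul pc]
    exact b.E.mono (by norm_num) (by norm_num) fun a =>
      b.E.mono (by norm_num [pc]) (by norm_num [pc]) fun c => h4 F lev a c h
  refine le_trans ?_ e6
  rw [div_mul_eq_mul_div, mul_div_assoc]
  refine mul_le_mul_of_nonneg_left ?_ (by norm_num [pd])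
  rw [pc] at e4 e5
  linarith [Nat.cast_nonneg (α := ℝ) (sl lev F h).card,
    Nat.cast_nonneg (α := ℝ) (F.filter fun e => h < lev e).card]

open Level_ in
theorem t_Core (b : Bas r) (h1 : StLevel r) (h2 : StCount r) : StCore r := by
  intro F lev I ord hI hr ho
  have hF : ∀ e ∈ F, lev e < F.sup lev + 1 := fun e he => Nat.lt_succ_of_le (le_sup he)
  generalize F.sup lev + 1 = H at hF
  have e1 : ∀ a c d, 1023 / 2048 * ∑ h ∈ range H, 1024 ^ h * cg r F lev a c d h ≤
      1 / 2 * ∑ ε ∈ range 2, ∑ e ∈ accS r (cX r F lev a c) (cW r F lev a c d) ε (ord a c d ε),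
        (1024 : ℝ) ^ lev e := fun a c d => by
    have k1 : ∀ h, cg r F lev a c d h ≤ ∑ ε ∈ range 2, ((accS r (cX r F lev a c) (cW r F lev a c d) ε
        (ord a c d ε)).filter fun e => h < lev e + 1).card := fun h => by
      rw [cg, ← sum_fiberwise_of_maps_to (g := (· % 2)) (t := range 2)
        fun s _ => mem_range.2 (Nat.mod_lt _ two_pos), Nat.cast_sum]
      simp only [Nat.lt_succ_iff]
      exact sum_le_sum fun ε _ => h2 _ _ ε _ lev h _ (fun s => b.P.pX_anti _ _ (Nat.le_add_right s 2))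
        (fun s e he => b.P.pN_sub_pX _ _ _ s (mem_filter.1 he).2.2.1) (ho a c d ε)
        fun s hs => (mem_filter.1 hs).2
    have k2 := sum_le_sum (s := range H) fun h _ =>
      mul_le_mul_of_nonneg_left (k1 h) (show (0 : ℝ) ≤ 1024 ^ h by positivity)
    have k3 := fun ε => geo (accS r (cX r F lev a c) (cW r F lev a c d) ε (ord a c d ε))
      (fun e => lev e + 1) H
    simp only [sum_range_succ _ 1, sum_range_one, Nat.cast_add, mul_add, sum_add_distrib, pow_succ,
      ← sum_mul] at k2 k3 ⊢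
    linarith [k3 0, k3 1]
  have e2 := b.E.e3_mono e1
  have e3 := b.E.e3_mono (f := fun _ _ _ => 0) (g := fun a c d => 1 / 2 * ∑ ε ∈ range 2,
    ∑ e ∈ accS r (cX r F lev a c) (cW r F lev a c d) ε (ord a c d ε), (1024 : ℝ) ^ lev e)
    fun _ _ _ => by positivity
  have e4 := sum_le_sum (s := range H) fun h _ => (show pd / 50000 *
      (1024 ^ h * (sl lev I h).card / 2 - 1024 ^ h * (sl lev F h).card / 28 -
        7 * (1024 ^ h * (F.filter fun e => h < lev e).card)) = _ by ring).le.trans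
    (mul_le_mul_of_nonneg_left (h1 F lev I h hI hr) (show (0 : ℝ) ≤ 1024 ^ h by positivity))
  rw [b.E.e3_mul, b.E.e3_sum] at e2
  rw [b.E.e3_const] at e3
  simp only [b.E.e3_mul] at e2 e3 ⊢
  simp only [sum_sub_distrib, ← mul_sum, ← sum_div, slice lev hF,
    slice lev fun e he => hF e (hI he)] at e4
  have e5 := geo F lev H
  have e6 : 0 ≤ ∑ e ∈ F, (1024 : ℝ) ^ lev e := by positivity
  rw [pd] at e4
  rcases le_total (8 * ∑ e ∈ I, (1024 : ℝ) ^ lev e) (∑ e ∈ F, (1024 : ℝ) ^ lev e) with h | h <;>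
    linarith

end Vale.Agent.P331.Full
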