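import Vale.Agent.P331.FSt

/-! P331: from the rank of the safe elements to the rank over the true context. -/

namespace Vale.Agent.P331.Full

open Finset

variable {α : Type} [Fintype α] [DecidableEq α] {r : Finset α → ℕ}

namespace Loss_

theorem step (b : Bas r) (Y G T Q X A B : Finset α) (hT : T ⊆ Q ∪ X) (hA : A ⊆ Q)
    (hB : Q ∪ Y ⊆ B) :
    rc r Y Q - ((Y ∩ G).card : ℝ) - (rc r X A - rc r X B) ≤ rc r (Y \ G) T := by
  have h1 := b.R.rc_chain (Y \ G) (Y ∩ G) T
  rw [sdiff_union_inter] at h1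
  have h2 := b.R.rc_le_card (Y ∩ G) (T ∪ (Y \ G))
  have h3 : (((Y ∩ G) \ (T ∪ (Y \ G))).card : ℝ) ≤ ((Y ∩ G).card : ℝ) := by
    exact_mod_cast card_le_card sdiff_subset
  have h4 := b.R.rc_anti Y hT
  have h5 := b.R.rc_chain Y X Q
  have h6 := b.R.rc_chain X Y Q
  rw [union_comm X Y] at h6
  have h7 := b.R.rc_anti X hA
  have h8 := b.R.rc_anti X hB
  linarith

omit [Fintype α] in
theorem sum_sl (lev : α → ℕ) (A B : Finset α) (S : Finset ℕ) (f : ℕ → ℕ)
    (hf : ∀ i ∈ S, ∀ j ∈ S, f i = f j → i = j)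
    (hB : ∀ e ∈ A, ∀ j ∈ S, lev e = f j → e ∈ B) :
    ∑ j ∈ S, (sl lev A (f j)).card ≤ B.card := by
  rw [← card_biUnion]
  · apply card_le_card
    intro e he
    obtain ⟨j, hj, hej⟩ := mem_biUnion.1 he
    simp only [sl, mem_filter] at hej
    exact hB e hej.1 j hj hej.2
  · intro i hi j hj hij
    show Disjoint (sl lev A (f i)) (sl lev A (f j))
    rw [disjoint_left]
    intro e h1 h2
    simp only [sl, mem_filter] at h1 h2
    exact hij (hf i hi j hj (h1.2.symm.trans h2.2))

theorem sum_guard (b : Bas r) (F : Finset α) (lev : α → ℕ) (Dc Gc Rc : Finset α) (h : ℕ) :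
    ∑ s ∈ range (h + 1), (cY r F lev Dc Gc Rc h s ∩ Gc).card ≤ (sC F lev Dc Gc h).card := by
  have key : ∀ s t, s < t → Disjoint (cY r F lev Dc Gc Rc h s ∩ Gc)
      (cY r F lev Dc Gc Rc h t ∩ Gc) := by
    intro s t hst
    rw [disjoint_left]
    intro e h1 h2
    simp only [cY, mem_inter, mem_sdiff] at h1 h2
    exact h1.1.1.2 (b.P.pN_anti _ _ h (Nat.succ_le_of_lt hst) h2.1.1.1.2)
  rw [← card_biUnion]
  · apply card_le_card
    intro e he
    obtain ⟨s, _, hes⟩ := mem_biUnion.1 he
    simp only [cY, sl, mem_inter, mem_sdiff, mem_filter] at hes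
    simp only [sC, sl, mem_inter, mem_sdiff, mem_filter]
    exact ⟨⟨hes.1.1.1.1.1, hes.2⟩, hes.1.1.1.1.2⟩
  · intro i _ j _ hij
    rcases lt_or_gt_of_ne hij with hlt | hlt
    · exact key i j hlt
    · exact (key j i hlt).symm

end Loss_

theorem t_Loss (b : Bas r) (hT : StTele r) : StLoss r := by
  intro F lev Dc Gc Rc h
  obtain ⟨H, hH, hX⟩ := b.P.pX_eq (sD F lev Dc) (sC F lev Dc Gc) (h + 2) h
  have htel := hT (sD F lev Dc) (sC F lev Dc Gc) h H hH
  have hstep : ∀ s ∈ range (h + 1),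
      rc r (cY r F lev Dc Gc Rc h s) (cQ r F lev Dc Gc Rc h s) -
        ((cY r F lev Dc Gc Rc h s ∩ Gc).card : ℝ) -
        (rc r (pN r (sD F lev Dc) (sC F lev Dc Gc) H (s + 2))
            (pN r (sD F lev Dc) (sC F lev Dc Gc) h (s + 2)) -
          rc r (pN r (sD F lev Dc) (sC F lev Dc Gc) H (s + 2))
            (pN r (sD F lev Dc) (sC F lev Dc Gc) h s)) ≤
      rc r (cY r F lev Dc Gc Rc h s \ Gc) (cT r F lev Dc Gc Rc h s) := by
    intro s hs
    have hsh : s ≤ h := Nat.lt_succ_iff.1 (mem_range.1 hs)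
    apply Loss_.step b
    · intro e he
      simp only [cT, mem_union, mem_filter] at he
      rcases he with he | ⟨he, hl⟩
      · apply mem_union_right
        rw [← hX (s + 2) (by omega)]
        exact he
      · apply mem_union_left
        have h1 : e ∈ sl lev (cW r F lev Dc Gc Rc s) (lev e) := by
          simp only [sl, mem_filter]
          exact ⟨he, trivial⟩
        rw [b.P.sl_cW] at h1
        exact b.P.win_sub_pQ _ _ _ s hl h1
    · exact b.P.pN_sub_pQ _ _ _ h s
    · apply union_subset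
      · exact b.P.pQ_sub_pN _ _ _ hsh
      · intro e he
        simp only [cY, mem_inter, mem_sdiff] at he
        exact he.1.1.2
  have hsum := sum_le_sum hstep
  rw [sum_sub_distrib, sum_sub_distrib] at hsum
  have hg : ∑ s ∈ range (h + 1), ((cY r F lev Dc Gc Rc h s ∩ Gc).card : ℝ) ≤
      ((sC F lev Dc Gc h).card : ℝ) := by
    exact_mod_cast Loss_.sum_guard b F lev Dc Gc Rc h
  have hC : ∑ j ∈ Ico h H, ((sC F lev Dc Gc j).card : ℝ) ≤ ((sC F lev Dc Gc h).card : ℝ) +
      ((((F \ Dc) ∩ Gc).filter fun e => h < lev e).card : ℝ) := by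
    have h1 := Loss_.sum_sl lev ((F \ Dc) ∩ Gc)
      (sC F lev Dc Gc h ∪ ((F \ Dc) ∩ Gc).filter fun e => h < lev e) (Ico h H) (fun j => j)
      (fun i _ j _ hij => hij) (by
        intro e he j hj hej
        have hj' := (mem_Ico.1 hj).1
        rcases eq_or_lt_of_le hj' with h0 | h0
        · apply mem_union_left
          simp only [sC, sl, mem_filter]
          exact ⟨he, hej.trans h0.symm⟩
        · apply mem_union_right
          rw [mem_filter]
          exact ⟨he, by rw [hej]; exact h0⟩)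
    have h2 := h1.trans (card_union_le _ _)
    exact_mod_cast h2
  have hD : ∑ j ∈ Ico h H, ((sD F lev Dc (j + 1)).card : ℝ) ≤
      ((F.filter fun e => h < lev e).card : ℝ) := by
    have h1 := Loss_.sum_sl lev (F ∩ Dc) (F.filter fun e => h < lev e) (Ico h H)
      (fun j => j + 1) (fun i _ j _ hij => by simpa using hij) (by
        intro e he j hj hej
        have hj' := (mem_Ico.1 hj).1
        rw [mem_filter]
        refine ⟨(mem_inter.1 he).1, ?_⟩
        rw [hej]
        omega)
    exact_mod_cast h1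
  have hsplit : ∑ j ∈ Ico h H, (((sC F lev Dc Gc j).card : ℝ) +
      2 * ((sD F lev Dc (j + 1)).card : ℝ) / 16384) =
      ∑ j ∈ Ico h H, ((sC F lev Dc Gc j).card : ℝ) +
        (∑ j ∈ Ico h H, ((sD F lev Dc (j + 1)).card : ℝ)) / 8192 := by
    rw [sum_add_distrib, sum_div]
    congr 1
    apply sum_congr rfl
    intro j _
    ring
  rw [hsplit] at htel
  unfold crho
  linarith

end Vale.Agent.P331.Full
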