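import Vale.Agent.P331.FSt

/-! P331: masking, the decisions of the rule, and matroid rank functions. -/

namespace Vale.Agent.P331.Full

open Finset

variable {α : Type} [Fintype α] [DecidableEq α] {r : Finset α → ℕ}

namespace Mask_

variable {O : Finset α} {z w : α → Code}

theorem ep (h : ∀ e ∈ O, w e = z e) : O ∩ Ep r w = O ∩ Ep r z := by
  ext e
  simp only [Ep, mem_inter, mem_filter]
  exact and_congr_right fun he => by rw [h e he]

theorem fil (h : ∀ e ∈ O, w e = z e) : filt r O w = filt r O z := by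
  funext e x
  simp only [filt, ep h]
  rw [filter_congr fun f hf => by rw [h f (mem_inter.1 hf).1],
    forall₂_congr fun o ho => by rw [h o (mem_inter.1 ho).1]]

theorem bas (h : ∀ e ∈ O, w e = z e) : base r O w = base r O z := by
  unfold base
  by_cases k : (O ∩ Ep r z).Nonempty
  · rw [dif_pos k, dif_pos (ep (r := r) h ▸ k),
      sup'_congr _ (ep h) fun o ho => by rw [h o (mem_inter.1 ho).1]]
  · rw [dif_neg k, dif_neg (ep (r := r) h ▸ k)]

theorem lv (h : ∀ e ∈ O, w e = z e) : lvl r O w = lvl r O z := by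
  funext x
  rw [lvl, lvl, bas h]

theorem mF {e : α} : e ∈ Fs r O z ↔ filt r O z e (z e) := by simp [Fs]

theorem mW {ω : Seed α} {s : ℕ} {e : α} : e ∈ oW r ω z w s ↔ elig r ω z s e (w e) := by simp [oW]

theorem mA {X W : ℕ → Finset α} {ε : ℕ} {l : List α} {e : α} : e ∈ accS r X W ε l ↔
    e ∈ l ∧ ∃ s, s % 2 = ε ∧ e ∈ W s ∧ e ∉ cl r (X (s + 2) ∪ (W s ∩ bef l e)) := by
  classical
  rw [accS, mem_filter, List.mem_toFinset]

theorem slc (h : ∀ e ∈ O, w e = z e) {A : Finset α} (h' : ∀ e ∈ A, w e = z e) :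
    sl (levs r O w) (Fs r O w ∩ A) = sl (levs r O z) (Fs r O z ∩ A) := by
  funext j
  ext e
  simp only [sl, mem_filter, mem_inter, mF]
  simp only [levs, fil h, lv h]
  by_cases he : e ∈ A
  · rw [h' e he]
  · simp only [he, and_false, false_and]

theorem nu {ω : Seed α} {s : ℕ} {e : α} {x : Code} (h : elig r ω z s e x) : e ∉ used ω := by
  simp only [used, mem_union, not_or]
  exact ⟨⟨h.1.2.2.1, h.2.1⟩, h.2.2.1⟩

omit [Fintype α] in
theorem sdc (F D G : Finset α) : (F \ D) ∩ G = F ∩ (G \ D) := by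
  ext e
  simp only [mem_inter, mem_sdiff]
  tauto

omit [Fintype α] [DecidableEq α] in
theorem cst (M : Matroid α) (A : Finset α) : (mrk M A : ℕ∞) = M.eRk (A : Set α) :=
  ENat.natCast_toNat ((M.eRk_le_encard _).trans_lt A.finite_toSet.encard_lt_top).ne

end Mask_

open Mask_

theorem t_Mask (r : Finset α → ℕ) : StMask r := by
  intro ω z y w l h1 h2
  have hO : ∀ e ∈ ω.1, w e = z e := fun e he => h1 e (by simp [used, he])
  have hD : sD (Fs r ω.1 w) (levs r ω.1 w) ω.2.1 = sD (Fs r ω.1 z) (levs r ω.1 z) ω.2.1 :=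
    slc hO fun e he => h1 e (by simp [used, he])
  have hC : sC (Fs r ω.1 w) (levs r ω.1 w) ω.2.1 ω.2.2.1 =
      sC (Fs r ω.1 z) (levs r ω.1 z) ω.2.1 ω.2.2.1 := by
    rw [sC, sC, sdc, sdc]
    exact slc hO fun e he => h1 e (by simp [used, (mem_sdiff.1 he).1])
  have hX : oX r ω w = oX r ω z := funext fun s => by rw [oX, oX, cX, cX, hD, hC]
  have hE : elig r ω w = elig r ω z := by
    funext s e x
    simp only [elig, cN, hD, hC, fil hO, lv hO]
  have hW : oW r ω w w = oW r ω z y := by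
    funext s
    ext e
    rw [mW, mW, hE]
    by_cases he : e ∈ used ω
    · exact iff_of_false (fun h => nu h he) fun h => nu h he
    · rw [h2 e he]
  refine ⟨by rw [oA, oA, hX, hW], fun e he => ?_⟩
  obtain ⟨-, s, -, h, -⟩ := mA.1 he
  exact ⟨nu (mW.1 h), (mW.1 h).1.1⟩

theorem t_Acc (b : Bas r) (hI : StInd r) : StAcc r := by
  classical
  intro ω z y l
  refine ⟨fun e => ?_, hI _ _ _ _ (fun s => b.P.pX_anti _ _ (Nat.le_add_right s 2)) fun s e he =>
    b.P.pN_sub_pX _ _ _ _ (mW.1 he).2.2.2.2.2.1⟩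
  have k : ∀ s, ((((l.takeWhile fun f => f ≠ e).map fun f => (f, y f)).filter fun q =>
      decide (elig r ω z s q.1 q.2)).map Prod.fst).toFinset = oW r ω z y s ∩ bef l e := fun s => by
    ext f
    simp only [List.mem_toFinset, List.mem_map, List.mem_filter, decide_eq_true_eq, mW, bef,
      mem_inter]
    exact ⟨fun ⟨_, ⟨⟨g, h1, h2⟩, h3⟩, h4⟩ => by subst h2; subst h4; exact ⟨h3, h1⟩,
      fun ⟨h1, h2⟩ => ⟨_, ⟨⟨f, h2, rfl⟩, h1⟩, rfl⟩⟩
  simp only [oA, mA, accD, k, mW]

theorem t_Mat (M : Matroid α) : StMat M := by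
  refine ⟨⟨by simp [mrk], fun {A B} h => ?_, fun e A => ?_, fun A B => ?_⟩, fun I => ?_⟩
  · rw [← Nat.cast_le (α := ℕ∞), cst, cst]
    exact M.eRk_mono (coe_subset.2 h)
  · rw [← Nat.cast_le (α := ℕ∞), Nat.cast_add, cst, cst, coe_insert]
    exact M.eRk_insert_le_add_one _ _
  · rw [← Nat.cast_le (α := ℕ∞), Nat.cast_add, Nat.cast_add, cst, cst, cst, cst, coe_union,
      coe_inter, add_comm]
    exact M.eRk_inter_add_eRk_union_le _ _
  · rw [Matroid.indep_iff_eRk_eq_encard_of_finite I.finite_toSet, ← cst,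
      Set.encard_coe_eq_coe_finsetCard, Nat.cast_inj]

end Vale.Agent.P331.Full
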