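import Vale.Agent.P331.FSt

/-! P331: the union bound over all schedules. -/

namespace Vale.Agent.P331.Full

open Finset

variable {α : Type} [Fintype α] [DecidableEq α] {r : Finset α → ℕ}

namespace Mom_

theorem own_sub (G : Finset α) (K : ℕ → Finset α) (J : Finset α) (pos τ : α → ℕ) (j : α) :
    own r G K J pos τ j ⊆ G := sdiff_subset.trans inter_subset_left

theorem own_disj (b : Bas r) (G : Finset α) {K : ℕ → Finset α} {J : Finset α} {pos τ : α → ℕ}
    (hK : ∀ t t', t ≤ t' → K t' ⊆ K t) (hS : Sched r K J pos τ) {i j : α} (hi : i ∈ J) (hj : j ∈ J)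
    (h : pos i < pos j) : Disjoint (own r G K J pos τ i) (own r G K J pos τ j) := by
  have k : insert i (ctx K J pos τ i) ⊆ ctx K J pos τ j :=
    insert_subset (mem_union_right _ (mem_filter.2 ⟨hi, h⟩))
      (union_subset_union (hK _ _ (hS.time i hi j hj h)) fun e he =>
        mem_filter.2 ⟨(mem_filter.1 he).1, (mem_filter.1 he).2.trans h⟩)
  exact disjoint_left.2 fun e h1 h2 =>
    (mem_sdiff.1 h2).2 (b.R.cl_mono k (mem_inter.1 (mem_sdiff.1 h1).1).2)

theorem sum_own (b : Bas r) (G : Finset α) {K : ℕ → Finset α} {J : Finset α} {pos τ : α → ℕ}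
    (hK : ∀ t t', t ≤ t' → K t' ⊆ K t) (hS : Sched r K J pos τ) :
    ∑ j ∈ J, (own r G K J pos τ j).card ≤ G.card := by
  rw [← card_biUnion]
  · exact card_le_card (biUnion_subset.2 fun j _ => own_sub G K J pos τ j)
  · intro i hi j hj hij
    rcases lt_trichotomy (pos i) (pos j) with h | h | h
    · exact own_disj b G hK hS hi hj h
    · exact absurd (hS.inj i hi j hj h) hij
    · exact (own_disj b G hK hS hj hi h).symm

/-- The weight of a letter. -/
noncomputable def om : Option (Bool × ℕ) → ℝ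
  | none => 1
  | some q => (1 / 2) ^ 21 * (1023 / 1024) ^ q.2

theorem om_nonneg (t : Option (Bool × ℕ)) : 0 ≤ om t := by
  cases t <;> simp only [om] <;> positivity

theorem geom (N : ℕ) :
    ∑ m ∈ range N, (1023 / 1024 : ℝ) ^ m = 1024 - 1024 * (1023 / 1024 : ℝ) ^ N := by
  induction N with
  | zero => simp
  | succ N ih => rw [sum_range_succ, ih]; ring

theorem sum_om (N : ℕ) :
    ∑ t ∈ insertNone ((univ : Finset Bool) ×ˢ range N), om t ≤ 1025 / 1024 := by
  rw [sum_insertNone, sum_product]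
  simp only [om, ← mul_sum, geom, sum_const, card_univ, Fintype.card_bool, nsmul_eq_mul]
  have : (0 : ℝ) ≤ (1023 / 1024 : ℝ) ^ N := by positivity
  norm_num
  linarith

/-- The admissible letters. -/
def lt (G : Finset α) (e : α) : Finset (Option (Bool × ℕ)) :=
  if e ∈ G then insertNone (univ ×ˢ range (G.card + 1)) else {none}

theorem sum_words (G : Finset α) :
    ∑ ψ ∈ Fintype.piFinset (lt G), ∏ e, om (ψ e) ≤ (1025 / 1024) ^ G.card := by
  rw [← prod_univ_sum (lt G) fun _ t => om t]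
  have e : ((1025 / 1024 : ℝ)) ^ G.card = ∏ e, if e ∈ G then (1025 / 1024 : ℝ) else 1 := by
    rw [prod_ite_mem, univ_inter, prod_const]
  rw [e]
  refine prod_le_prod (fun e _ => sum_nonneg fun t _ => om_nonneg t) fun e _ => ?_
  unfold lt
  split_ifs
  · exact sum_om _
  · simp [om]

/-- The description of a schedule. -/
def ds (J J' : Finset α) (c : α → ℕ) (e : α) : Option (Bool × ℕ) :=
  if e ∈ J then some (decide (e ∈ J'), c e) else none

omit [Fintype α] in
theorem ds_inj {J J' I I' : Finset α} {c d : α → ℕ} (hJ : J' ⊆ J) (hI : I' ⊆ I)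
    (h : ds J J' c = ds I I' d) : J = I ∧ J' = I' ∧ ∀ e ∈ J, c e = d e := by
  have h1 : J = I := by
    ext e
    have := congrFun h e
    unfold ds at this
    by_cases a : e ∈ J <;> by_cases a' : e ∈ I <;> simp_all
  subst h1
  have h2 : ∀ e ∈ J, (e ∈ J' ↔ e ∈ I') ∧ c e = d e := fun e he => by
    simpa [ds, he] using congrFun h e
  exact ⟨rfl, Finset.ext fun e => ⟨fun k => (h2 e (hJ k)).1.1 k, fun k => (h2 e (hI k)).1.2 k⟩,
    fun e he => (h2 e he).2⟩

theorem prod_ds (J J' : Finset α) (c : α → ℕ) :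
    ∏ e, om (ds J J' c e) = ((1 / 2) ^ 21) ^ J.card * (1023 / 1024) ^ ∑ e ∈ J, c e := by
  have e : ∀ e, om (ds J J' c e) =
      if e ∈ J then (1 / 2) ^ 21 * (1023 / 1024 : ℝ) ^ c e else 1 := fun e => by
    unfold ds
    split_ifs <;> rfl
  simp only [e]
  rw [prod_ite_mem, univ_inter, prod_mul_distrib, prod_const, prod_pow_eq_pow_sum]

theorem exp_le {t u : ℝ} (hu : 0 < u) (h : u⁻¹ ≤ t + 1) : Real.exp (-t) ≤ u := by
  rw [Real.exp_neg]
  exact inv_le_of_inv_le₀ hu (h.trans (Real.add_one_le_exp t))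

theorem point (a b c n : ℕ) : 1 / 3 * (a : ℝ) - b - 21 * c - n / 500 + 1 ≤
    ((1025 / 1024) ^ n)⁻¹ *
      (((1 / 2) ^ 21) ^ c * (1023 / 1024) ^ n * ((3 / 2) ^ a * (1 / 2) ^ b)) := by
  have h1 : Real.exp (-(-1 / 3)) ≤ 3 / 2 := exp_le (by norm_num) (by norm_num)
  have h2 : Real.exp (-1) ≤ 1 / 2 := exp_le (by norm_num) (by norm_num)
  have h3 : Real.exp (-(1 / 500)) ≤ 1023 / 1025 := exp_le (by norm_num) (by norm_num)
  refine (Real.add_one_le_exp _).trans ?_
  have e : Real.exp (1 / 3 * (a : ℝ) - b - 21 * c - n / 500) = Real.exp (-(1 / 500)) ^ n *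
      ((Real.exp (-1) ^ 21) ^ c * (Real.exp (-(-1 / 3)) ^ a * Real.exp (-1) ^ b)) := by
    simp only [← Real.exp_nat_mul, ← Real.exp_add]
    congr 1
    push_cast
    ring
  have e' : (((1025 / 1024) ^ n)⁻¹ *
      (((1 / 2) ^ 21) ^ c * (1023 / 1024) ^ n * ((3 / 2) ^ a * (1 / 2) ^ b)) : ℝ) =
      (1023 / 1025) ^ n * (((1 / 2) ^ 21) ^ c * ((3 / 2) ^ a * (1 / 2) ^ b)) := by
    rw [← inv_pow, show (1023 / 1025 : ℝ) = (1025 / 1024)⁻¹ * (1023 / 1024) by norm_num, mul_pow]
    ring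
  rw [e, e']
  gcongr

end Mom_

open Mom_ in
theorem t_Mom (b : Bas r) (hU : StUniq r) : StMom r := by
  intro G K J J' pos τ hK hJ hJ' hS
  set o : Finset α → α → Finset α := fun D => own r G K (J D) (pos D) (τ D) with ho
  set φ : Finset α → α → Option (Bool × ℕ) := fun D => ds (J D) (J' D) fun e => (o D e).card
    with hφ
  have hf : Function.FactorsThrough (fun D => (J' D).biUnion (o D)) φ := fun D D' h => by
    obtain ⟨h1, h2, h3⟩ := ds_inj (hJ' D) (hJ' D') h
    have h4 := hU G (J D) K (pos D) (τ D) (pos D') (τ D') hK (hS D) (h1 ▸ hS D')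
      fun j hj => by simpa only [ho, h1] using h3 j hj
    refine biUnion_congr h2 fun j hj => ?_
    simpa only [ho, h1] using h4 j (hJ' D hj)
  set g := Function.extend φ (fun D => (J' D).biUnion (o D)) fun _ => ∅
  have hg : ∀ D, g (φ D) = (J' D).biUnion (o D) := hf.extend_apply _
  have hm : ∀ D, φ D ∈ Fintype.piFinset (lt G) := fun D => Fintype.mem_piFinset.2 fun e => by
    have := card_le_card (own_sub (r := r) G K (J D) (pos D) (τ D) e)
    by_cases h : e ∈ J D
    · simp [hφ, ho, ds, lt, h, hJ D h, this]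
    · by_cases h' : e ∈ G <;> simp [hφ, ds, lt, h, h']
  have key : ∀ D, 1 / 3 * (((J' D).biUnion (o D) \ D).card : ℝ) -
      (((J' D).biUnion (o D) ∩ D).card : ℝ) - 21 * ((J D).card : ℝ) - (G.card : ℝ) / 500 + 1 ≤
      ((1025 / 1024) ^ G.card)⁻¹ * ∑ ψ ∈ Fintype.piFinset (lt G), (∏ e, om (ψ e)) *
        ((3 / 2) ^ (g ψ \ D).card * (1 / 2) ^ (g ψ ∩ D).card) := fun D => by
    refine (point _ _ _ _).trans (mul_le_mul_of_nonneg_left (le_trans ?_ (single_le_sum
      (f := fun ψ => (∏ e, om (ψ e)) * ((3 / 2) ^ (g ψ \ D).card * (1 / 2) ^ (g ψ ∩ D).card))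
      (fun ψ _ => mul_nonneg (prod_nonneg fun e _ => om_nonneg _) (by positivity)) (hm D)))
      (by positivity))
    rw [hg, hφ, prod_ds]
    refine mul_le_mul_of_nonneg_right (mul_le_mul_of_nonneg_left ?_ (by positivity))
      (by positivity)
    exact pow_le_pow_of_le_one (by norm_num) (by norm_num) (sum_own b G hK (hS D))
  have h := b.E.mono (p := 1 / 2) (by norm_num) (by norm_num) key
  rw [b.E.add, b.E.sub, b.E.sub, b.E.sub, b.E.mul, b.E.mul, b.E.mul, b.E.const, b.E.const,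
    b.E.sum] at h
  simp only [b.E.mul, b.E.prod] at h
  norm_num only [one_pow, mul_one] at h
  have h2 := mul_le_mul_of_nonneg_left (sum_words G)
    (show (0 : ℝ) ≤ ((1025 / 1024) ^ G.card)⁻¹ by positivity)
  rw [inv_mul_cancel₀ (by positivity)] at h2
  linarith

end Vale.Agent.P331.Full
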