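import Vale.Agent.P331.FSt

/-! P331: the estimate for fixed codes. -/

namespace Vale.Agent.P331.Full

open Finset

variable {α : Type} [Fintype α] [DecidableEq α] {r : Finset α → ℕ}

namespace Outer_

theorem mem_Fs {O : Finset α} {z : α → Code} {e : α} : e ∈ Fs r O z ↔ filt r O z e (z e) := by
  simp [Fs]

theorem mu {O : Finset α} {z : α → Code} (h : (O ∩ Ep r z).Nonempty ∨ (Ep r z).card ≤ 1) :
    ∃ μ : ℝ, 0 < μ ∧ ∀ e ∈ Fs r O z, rw1 (z e) = μ * 1024 ^ levs r O z e := by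
  rcases h with h | h
  · refine ⟨1024 ^ base r O z, by positivity, fun e he => ?_⟩
    have h1 : base r O z ≤ (z e).1 := by
      rw [base, dif_pos h, sub_le_iff_le_add]
      exact sup'_le _ _ (mem_Fs.1 he).2.2.2.2
    rw [levs, lvl, ← zpow_natCast, Int.toNat_of_nonneg (sub_nonneg.2 h1),
      ← zpow_add₀ (by norm_num), add_sub_cancel, rw1]
  rcases (Fs r O z).eq_empty_or_nonempty with e | ⟨a, ha⟩
  · exact ⟨1, one_pos, by simp [e]⟩
  have h1 : ∀ e ∈ Fs r O z, e ∈ Ep r z := fun e he =>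
    mem_filter.2 ⟨mem_univ _, (mem_Fs.1 he).1, (mem_Fs.1 he).2.1⟩
  refine ⟨rw1 (z a) / 1024 ^ levs r O z a, by unfold rw1; positivity, fun e he => ?_⟩
  rw [card_le_one.1 h e (h1 e he) a (h1 a ha), div_mul_cancel₀ _ (by positivity)]

theorem oW_eq (ω : Seed α) (z : α → Code) :
    oW r ω z z = cW r (Fs r ω.1 z) (levs r ω.1 z) ω.2.1 ω.2.2.1 ω.2.2.2.1 := by
  classical
  funext s
  ext e
  rw [oW, cW, mem_filter, mem_filter]
  simp only [elig, mem_univ, true_and, mem_inter, mem_sdiff, mem_Fs, levs, and_assoc]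

theorem acc_sub (X : ℕ → Finset α) (F : Finset α) (lev : α → ℕ) (a b c : Finset α) (ε : ℕ)
    (l : List α) : accS r X (cW r F lev a b c) ε l ⊆ F := fun e he => by
  classical
  rw [accS, mem_filter] at he
  obtain ⟨-, s, -, h, -⟩ := he
  exact (mem_sdiff.1 (mem_sdiff.1 (mem_inter.1 (mem_filter.1 h).1).1).1).1

end Outer_

open Outer_ in
theorem t_Outer (b : Bas r) (hC : StCore r) (hG : StGreedy r) (hF : StFilt r) : StOuter r := by
  intro z ord I ho hI hr
  have key : ∀ O : Finset α, 1 / 2 ^ 53 * (if (O ∩ Ep r z).Nonempty ∨ (Ep r z).card ≤ 1 then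
      8 * ∑ e ∈ gr r z (Ep r z) ∩ Fs r O z, rw1 (z e) - ∑ e ∈ Fs r O z, rw1 (z e) else 0) ≤
      E3 fun a d c => 1 / 2 * (∑ e ∈ oA r (O, a, d, c, 0) z z (ord (O, a, d, c, 0)), rw1 (z e) +
        ∑ e ∈ oA r (O, a, d, c, 1) z z (ord (O, a, d, c, 1)), rw1 (z e)) := fun O => by
    split_ifs with h
    · obtain ⟨μ, h0, hμ⟩ := mu h
      have h1 : ∀ S ⊆ Fs r O z, ∑ e ∈ S, rw1 (z e) = μ * ∑ e ∈ S, (1024 : ℝ) ^ levs r O z e :=
        fun S hS => by
          rw [mul_sum]
          exact sum_congr rfl fun e he => hμ e (hS he)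
      have h2 := b.R.ind_sub (T := ∅) (T' := ∅) (Z := gr r z (Ep r z) ∩ Fs r O z)
        (by rw [empty_union, b.k.empty, zero_add]; exact (hG z _).1) Subset.rfl inter_subset_left
      rw [empty_union, b.k.empty, zero_add] at h2
      have h3 := mul_le_mul_of_nonneg_left (hC _ (levs r O z) _
        (fun a d c ε => ord (O, a, d, c, if ε = 0 then 0 else 1)) inter_subset_right h2
        fun _ _ _ _ e => ho _ e) h0.le
      rw [← b.E.e3_mul] at h3
      rw [h1 _ inter_subset_right, h1 _ Subset.rfl]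
      refine (le_of_eq (by ring)).trans (h3.trans (b.E.e3_mono fun a d c => le_of_eq ?_))
      simp only [oA, oW_eq]
      rw [h1 _ (acc_sub _ _ _ _ _ _ _ _), h1 _ (acc_sub _ _ _ _ _ _ _ _), sum_range_succ,
        sum_range_one, mul_left_comm, mul_add]
      rfl
    · rw [mul_zero, ← b.E.e3_const 0]
      have h1 : ∀ S : Finset α, 0 ≤ ∑ e ∈ S, rw1 (z e) := fun S =>
        sum_nonneg fun e _ => by unfold rw1; positivity
      exact b.E.e3_mono fun a d c => mul_nonneg (by norm_num) (add_nonneg (h1 _) (h1 _))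
  have h1 := b.E.mono (p := 1 / 2) (by norm_num) (by norm_num) key
  rw [b.E.mul] at h1
  rw [b.E.seed]
  refine le_trans ?_ h1
  linarith [hF z, (hG z _).2 I hI hr]

end Vale.Agent.P331.Full
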