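import Vale.Agent.P331.FSt

/-! P331: lighter windows capture an element less often than lighter guards do. -/

namespace Vale.Agent.P331.Full

open Finset

variable {α : Type} [Fintype α] [DecidableEq α] {r : Finset α → ℕ}

namespace Safe_

variable {F Dc G G' R R' J J' : Finset α} {lev : α → ℕ} {t e : α} {h s : ℕ}

theorem qB_dep (Dl : ℕ → Finset α) {Ul Ul' : ℕ → Finset α} (hU : ∀ j, s ≤ j → Ul j = Ul' j)
    (h : ℕ) : qB r Dl s Ul h = qB r Dl s Ul' h := by
  induction h with
  | zero => rfl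
  | succ h ih =>
    rw [qB, qB, ih]
    split_ifs with h1
    · rw [hU h h1]
    · rfl

omit [Fintype α] in
theorem mem_iff (hG : G.erase t = G'.erase t) {x : α} (hx : x ≠ t) : x ∈ G ↔ x ∈ G' := by
  have := Finset.ext_iff.1 hG x
  simpa [hx] using this

omit [Fintype α] in
theorem mem_sC {x : α} {j : ℕ} : x ∈ sC F lev Dc G j ↔ x ∈ sl lev (F \ Dc) j ∧ x ∈ G := by
  simp only [sC, sl, mem_filter, mem_inter]
  tauto

theorem N_low (b : Bas r) (hG : G.erase t = G'.erase t) {j : ℕ} (hj : j ≤ lev t) (s : ℕ) :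
    cN r F lev Dc G j s = cN r F lev Dc G' j s := by
  refine b.P.pN_congr (fun _ _ => rfl) (fun i hi => ext fun x => ?_) s
  rw [mem_sC, mem_sC]
  refine and_congr_right fun hx => mem_iff hG ?_
  rintro rfl
  have := (mem_filter.1 hx).2
  omega

theorem N_all (b : Bas r) (hG : G.erase t = G'.erase t) (ht : t ∈ cN r F lev Dc G (lev t) s)
    (j : ℕ) : cN r F lev Dc G j s = cN r F lev Dc G' j s := by
  have key : ∀ j, ∀ s' ≤ s, pB r (sD F lev Dc) (sC F lev Dc G) j s' =
      pB r (sD F lev Dc) (sC F lev Dc G') j s' := by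
    intro j
    induction j with
    | zero => exact fun _ _ => rfl
    | succ j ih =>
      intro s' hs
      have k : ∀ s' ≤ s, pN r (sD F lev Dc) (sC F lev Dc G') j s' =
          pN r (sD F lev Dc) (sC F lev Dc G) j s' := fun s' hs => by rw [pN, pN, ih s' hs]
      rw [b.P.pB_succ, b.P.pB_succ, k s' hs, k (s' - 1) (by omega)]
      split_ifs
      · ext x
        simp only [mem_union, mem_inter, mem_sC]
        by_cases hx : x = t
        · subst hx
          by_cases hj : lev x = j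
          · subst hj
            exact iff_of_true (Or.inl (b.P.pN_anti _ _ _ hs ht)) (Or.inl (b.P.pN_anti _ _ _ hs ht))
          · simp [sl, hj]
        · rw [mem_iff hG hx]
      · rfl
  rw [cN, cN, pN, pN, key j s le_rfl]

/-- The coin pattern that puts an element into the hybrid set. -/
def C (r : Finset α → ℕ) (F : Finset α) (lev : α → ℕ) (Dc : Finset α) (s : ℕ) (J G R : Finset α)
    (x : α) : Prop :=
  if x ∈ J then (x ∈ G ∧ x ∈ cN r F lev Dc G (lev x) (s + 1)) ∨
    (x ∉ G ∧ x ∈ R ∧ x ∉ cN r F lev Dc G (lev x) (s + 1)) else x ∈ G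

open Classical in
/-- The hybrid sets. -/
noncomputable def U (r : Finset α → ℕ) (F : Finset α) (lev : α → ℕ) (Dc : Finset α) (s : ℕ)
    (J G R : Finset α) (j : ℕ) : Finset α :=
  (sl lev (F \ Dc) j ∩ cN r F lev Dc G j s).filter (C r F lev Dc s J G R)

/-- The hybrid flat. -/
noncomputable def Q (r : Finset α → ℕ) (F : Finset α) (lev : α → ℕ) (Dc : Finset α) (h s : ℕ)
    (J G R : Finset α) : Finset α := qN r (sD F lev Dc) s (U r F lev Dc s J G R) h

theorem Q_empty (b : Bas r) (hs : s ≤ h) : Q r F lev Dc h s ∅ G R = cN r F lev Dc G h (s + 1) := by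
  rw [cN, b.P.pN_eq_qN _ _ hs, Q]
  congr
  ext j x
  simp only [U, C, mem_filter, mem_inter, mem_sC, notMem_empty, if_false, cN]
  tauto

theorem Q_univ (b : Bas r) : Q r F lev Dc h s univ G R = cQ r F lev Dc G R h s := by
  rw [Q, cQ, pQ, qN, qN, qB_dep _ fun j hj => ?_]
  ext x
  have := @b.P.pN_anti (sD F lev Dc) (sC F lev Dc G) j _ _ s.le_succ x
  simp only [U, C, qU, win, if_pos hj, mem_filter, mem_inter, mem_union, mem_sdiff, mem_sC,
    mem_univ, if_true, cN, sR, sl]
  constructor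
  · rintro ⟨⟨⟨h1, rfl⟩, h2⟩, h3⟩
    tauto
  · rintro (⟨⟨⟨h1, rfl⟩, h2⟩, h3⟩ | ⟨⟨⟨h1, rfl⟩, h2⟩, h3⟩) <;> tauto

theorem Q_same (ht : t ∉ J) (h1 : t ∉ cN r F lev Dc G (lev t) s ∨
    t ∈ cN r F lev Dc G (lev t) (s + 1)) :
    Q r F lev Dc h s (insert t J) G R = Q r F lev Dc h s J G R := by
  rw [Q, Q]
  congr 1
  ext j x
  simp only [U, mem_filter, mem_inter, sl]
  refine and_congr_right fun ⟨⟨_, h2⟩, h3⟩ => ?_
  by_cases hx : x = t
  · subst hx h2
    simp [C, ht, h1.resolve_left (not_not.2 h3)]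
  · simp [C, hx]

theorem Q_cmp (b : Bas r) (hJ : J.erase t = J'.erase t) (hG : G.erase t = G'.erase t)
    (hR : R.erase t = R'.erase t) (hl : ∀ x ∈ J.erase t, lev x ≤ lev t)
    (ht : t ∈ cN r F lev Dc G (lev t) s) (hc : C r F lev Dc s J G R t → C r F lev Dc s J' G' R' t) :
    Q r F lev Dc h s J G R ⊆ Q r F lev Dc h s J' G' R' := by
  refine b.P.qN_mono _ _ (fun j x hx => ?_) h
  simp only [U, mem_filter, ← N_all b hG ht] at hx ⊢
  refine ⟨hx.1, ?_⟩
  by_cases h1 : x = t
  · subst h1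
    exact hc hx.2
  · have h2 := hx.2
    rw [C] at h2 ⊢
    rw [← mem_iff hG h1, ← mem_iff hR h1]
    by_cases h3 : x ∈ J
    · rw [if_pos h3] at h2
      rwa [if_pos ((mem_iff hJ h1).1 h3), ← N_low b hG (hl x (mem_erase.2 ⟨h1, h3⟩))]
    · rw [if_neg h3] at h2
      rwa [if_neg (mt (mem_iff hJ h1).2 h3)]

/-- The potential. -/
noncomputable def H (e : α) (P Q : Finset α) : ℝ :=
  1 / 128 * (if e ∈ P \ Q then 1 else 0) - if e ∈ Q \ P then 1 else 0

/-- The average over the two coins of `t`. -/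
noncomputable def av (t : α) (f : Finset α → Finset α → ℝ) (G R : Finset α) : ℝ :=
  pc * (pd * f (insert t G) (insert t R) + (1 - pd) * f (insert t G) (R.erase t)) +
    (1 - pc) * (pd * f (G.erase t) (insert t R) + (1 - pd) * f (G.erase t) (R.erase t))

theorem split (b : Bas r) (t : α) (f : Finset α → Finset α → ℝ) :
    (Ex pc fun G => Ex pd (f G)) = Ex pc fun G => Ex pd (av t f G) := by
  rw [b.E.split pc t]
  congr
  ext G
  rw [b.E.split pd t (f _), b.E.split pd t (f _), ← b.E.mul, ← b.E.mul, ← b.E.add]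
  rfl

theorem step (b : Bas r) (ht : t ∉ J) (hl : ∀ x ∈ J, lev x ≤ lev t) (G R : Finset α) :
    av t (fun G R => H e (cN r F lev Dc G h (s + 1)) (Q r F lev Dc h s J G R)) G R ≤
      av t (fun G R => H e (cN r F lev Dc G h (s + 1)) (Q r F lev Dc h s (insert t J) G R)) G R := by
  have hG : (insert t G).erase t = (G.erase t).erase t := by simp
  have hN := N_low (F := F) (Dc := Dc) (lev := lev) b hG le_rfl
  by_cases h1 : t ∉ cN r F lev Dc (G.erase t) (lev t) s ∨
      t ∈ cN r F lev Dc (G.erase t) (lev t) (s + 1)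
  · simp only [av, Q_same ht h1, Q_same (G := insert t G) ht (by rwa [hN, hN]), le_refl]
  rw [not_or, not_not] at h1
  have k : ∀ J₁ J₂ G₁ G₂ R₁ R₂ : Finset α, J₁.erase t = J → J₂.erase t = J →
      G₁.erase t = G.erase t → G₂.erase t = G.erase t → R₁.erase t = R.erase t →
      R₂.erase t = R.erase t → (C r F lev Dc s J₁ G₁ R₁ t → C r F lev Dc s J₂ G₂ R₂ t) →
      Q r F lev Dc h s J₁ G₁ R₁ ⊆ Q r F lev Dc h s J₂ G₂ R₂ :=
    fun J₁ J₂ G₁ G₂ R₁ R₂ a1 a2 a3 a4 a5 a6 => Q_cmp b (a1.trans a2.symm) (a3.trans a4.symm)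
      (a5.trans a6.symm) (a1 ▸ hl) (by
        rw [N_low (G' := G.erase t) b (by simpa using a3) le_rfl]; exact h1.1)
  have k' : ∀ J₁ J₂ G₁ G₂ R₁ R₂ : Finset α, J₁.erase t = J → J₂.erase t = J →
      G₁.erase t = G.erase t → G₂.erase t = G.erase t → R₁.erase t = R.erase t →
      R₂.erase t = R.erase t → (C r F lev Dc s J₁ G₁ R₁ t ↔ C r F lev Dc s J₂ G₂ R₂ t) →
      Q r F lev Dc h s J₁ G₁ R₁ = Q r F lev Dc h s J₂ G₂ R₂ :=
    fun J₁ J₂ G₁ G₂ R₁ R₂ a1 a2 a3 a4 a5 a6 a7 => (k _ _ _ _ _ _ a1 a2 a3 a4 a5 a6 a7.1).antisymm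
      (k _ _ _ _ _ _ a2 a1 a4 a3 a6 a5 a7.2)
  have h2 := h1.2
  have m := @k J J (G.erase t) (insert t G) (R.erase t) (R.erase t) (by simp [ht]) (by simp [ht])
    (by simp) (by simp) (by simp) (by simp) (by simp [C, ht]) e
  simp only [av]
  rw [k' J J (insert t G) (insert t G) (insert t R) (R.erase t),
    k' J J (G.erase t) (G.erase t) (insert t R) (R.erase t),
    k' (insert t J) J (insert t G) (G.erase t) (insert t R) (R.erase t),
    k' (insert t J) J (insert t G) (G.erase t) (R.erase t) (R.erase t),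
    k' (insert t J) J (G.erase t) (insert t G) (insert t R) (R.erase t),
    k' (insert t J) J (G.erase t) (G.erase t) (R.erase t) (R.erase t)]
  · simp only [H, mem_sdiff, pc, pd]
    by_cases q0 : e ∈ Q r F lev Dc h s J (G.erase t) (R.erase t)
    · simp only [q0, m q0]
      exact le_of_eq (by ring)
    by_cases q1 : e ∈ Q r F lev Dc h s J (insert t G) (R.erase t) <;>
      by_cases p0 : e ∈ cN r F lev Dc (G.erase t) h (s + 1) <;>
      by_cases p1 : e ∈ cN r F lev Dc (insert t G) h (s + 1) <;>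
      norm_num [q0, q1, p0, p1]
  all_goals simp [C, ht, hN, h2]

end Safe_

open Safe_ in
theorem t_Safe (b : Bas r) : StSafe r := by
  intro F lev Dc e h s hs
  have c0 : 0 ≤ pc := by norm_num [pc]
  have c1 : pc ≤ 1 := by norm_num [pc]
  have d0 : 0 ≤ pd := by norm_num [pd]
  have d1 : pd ≤ 1 := by norm_num [pd]
  have key : ∀ J : Finset α, 0 ≤ Ex pc fun G => Ex pd fun R =>
      H e (cN r F lev Dc G h (s + 1)) (Q r F lev Dc h s J G R) := by
    intro J
    induction J using Finset.induction_on_max_value lev with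
    | empty => simp [Q_empty b hs, H, b.E.const]
    | insert t J ht hl ih =>
      rw [split b t] at ih ⊢
      exact ih.trans (b.E.mono c0 c1 fun G => b.E.mono d0 d1 (step b ht hl G))
  have := key univ
  simp only [Q_univ b, H, b.E.sub, b.E.mul] at this
  exact sub_nonneg.1 this

end Vale.Agent.P331.Full
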