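import Vale.Agent.P331.FSt

/-! P331: every chain of flats comes from a schedule. -/

namespace Vale.Agent.P331.Full

open Finset

variable {α : Type} [Fintype α] [DecidableEq α] {r : Finset α → ℕ}

namespace Sched_

/-- A linear order on `A` that refines the reverse of the times. -/
structure Ord (A : Finset α) (pos τ : α → ℕ) : Prop where
  inj : ∀ i ∈ A, ∀ j ∈ A, pos i = pos j → i = j
  lt : ∀ i ∈ A, ∀ j ∈ A, τ j < τ i → pos i < pos j

/-- The pivots. -/
def piv (r : Finset α → ℕ) (K : ℕ → Finset α) (A : Finset α) (pos τ : α → ℕ) : Finset α :=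
  A.filter fun x => x ∉ cl r (K (τ x) ∪ A.filter fun y => pos y < pos x)

/-- The elements treated before position `n` of time `t`. -/
def bf (A : Finset α) (pos τ : α → ℕ) (t n : ℕ) : Finset α :=
  A.filter fun y => t < τ y ∨ τ y = t ∧ pos y < n

variable {K : ℕ → Finset α} {A : Finset α} {pos τ : α → ℕ}

omit [Fintype α] [DecidableEq α] in
theorem Ord.time (h : Ord A pos τ) {i j : α} (hi : i ∈ A) (hj : j ∈ A) (hp : pos i < pos j) :
    τ j ≤ τ i := not_lt.1 fun h' => (h.lt j hj i hi h').not_gt hp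

theorem greedy (b : BR r) (hK : ∀ t t', t ≤ t' → K t' ⊆ K t) (h : Ord A pos τ) (t n : ℕ) :
    ∀ y ∈ A, pos y < n → t ≤ τ y →
      y ∈ cl r (K t ∪ (piv r K A pos τ).filter fun i => pos i < n) := by
  induction n using Nat.strong_induction_on with
  | _ n ih =>
    intro y hy h1 h2
    by_cases hJ : y ∈ piv r K A pos τ
    · exact b.sub_cl _ (mem_union_right _ (mem_filter.2 ⟨hJ, h1⟩))
    have h3 : y ∈ cl r (K (τ y) ∪ A.filter fun z => pos z < pos y) :=
      not_not.1 fun h' => hJ (mem_filter.2 ⟨hy, h'⟩)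
    refine b.cl_sub (union_subset
      (((hK t _ h2).trans subset_union_left).trans (b.sub_cl _)) fun z hz => ?_) h3
    obtain ⟨h4, h5⟩ := mem_filter.1 hz
    refine b.cl_mono (union_subset_union_right fun i hi => ?_)
      (ih (pos y) h1 z h4 h5 (h2.trans (h.time h4 hy h5)))
    exact mem_filter.2 ⟨(mem_filter.1 hi).1, (mem_filter.1 hi).2.trans h1⟩

theorem sub_ctx (b : BR r) (hK : ∀ t t', t ≤ t' → K t' ⊆ K t) (h : Ord A pos τ) {x : α}
    (hx : x ∈ A) : (K (τ x) ∪ A.filter fun y => pos y < pos x) ⊆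
      cl r (ctx K (piv r K A pos τ) pos τ x) :=
  union_subset (subset_union_left.trans (b.sub_cl _)) fun y hy =>
    greedy b hK h _ _ y (mem_filter.1 hy).1 (mem_filter.1 hy).2
      (h.time (mem_filter.1 hy).1 hx (mem_filter.1 hy).2)

theorem ctx_sub (x : α) : ctx K (piv r K A pos τ) pos τ x ⊆
    K (τ x) ∪ A.filter fun y => pos y < pos x :=
  union_subset_union_right (filter_subset_filter _ (filter_subset _ _))

theorem sched (b : BR r) (h : Ord A pos τ) : Sched r K (piv r K A pos τ) pos τ :=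
  ⟨fun i hi j hj => h.inj i (mem_filter.1 hi).1 j (mem_filter.1 hj).1,
    fun _ hi _ hj => h.time (mem_filter.1 hi).1 (mem_filter.1 hj).1,
    fun j hj h' => (mem_filter.1 hj).2 (b.cl_mono (ctx_sub j) h')⟩

omit [Fintype α] in
theorem step (h : Ord A pos τ) (t n : ℕ) :
    (∀ y ∈ A, τ y = t → pos y ≠ n) ∧ bf A pos τ t (n + 1) = bf A pos τ t n ∨
      ∃ j ∈ A, τ j = t ∧ pos j = n ∧ bf A pos τ t (n + 1) = insert j (bf A pos τ t n) ∧
        bf A pos τ t n = A.filter fun y => pos y < pos j := by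
  by_cases h0 : ∃ j ∈ A, τ j = t ∧ pos j = n
  · obtain ⟨j, hj, rfl, rfl⟩ := h0
    refine Or.inr ⟨j, hj, rfl, rfl, ?_, filter_congr fun y hy => ?_⟩
    · ext y
      simp only [bf, mem_filter, mem_insert]
      constructor
      · rintro ⟨h1, h2⟩
        by_cases e : pos y = pos j
        · exact Or.inl (h.inj y h1 j hj e)
        · exact Or.inr ⟨h1, by omega⟩
      · rintro (rfl | ⟨h1, h2⟩)
        · exact ⟨hj, by omega⟩
        · exact ⟨h1, by omega⟩
    · have h1 := h.lt y hy j hj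
      have h2 := h.time hy hj
      omega
  · have h1 : ∀ y ∈ A, τ y = t → pos y ≠ n := fun y hy a c => h0 ⟨y, hy, a, c⟩
    refine Or.inl ⟨h1, filter_congr fun y hy => ?_⟩
    have := h1 y hy
    omega

theorem count (b : BR r) (h : Ord A pos τ) (t n : ℕ) :
    r (K t ∪ bf A pos τ t n) = r (K t ∪ bf A pos τ t 0) +
      ((piv r K A pos τ).filter fun j => τ j = t ∧ pos j < n).card := by
  induction n with
  | zero => simp
  | succ n ih =>
    rcases step h t n with ⟨h1, h2⟩ | ⟨j, hj, rfl, rfl, h1, h2⟩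
    · rw [h2, ih, filter_congr (q := fun j => τ j = t ∧ pos j < n + 1) fun y hy => ?_]
      have := h1 y (mem_filter.1 hy).1
      omega
    rw [h1, union_insert]
    by_cases hJ : j ∈ piv r K A pos τ
    · have e : ((piv r K A pos τ).filter fun i => τ i = τ j ∧ pos i < pos j + 1) =
          insert j ((piv r K A pos τ).filter fun i => τ i = τ j ∧ pos i < pos j) := by
        ext y
        rw [mem_insert, mem_filter, mem_filter]
        constructor
        · rintro ⟨k1, k2⟩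
          by_cases e : pos y = pos j
          · exact Or.inl (h.inj y (mem_filter.1 k1).1 j hj e)
          · exact Or.inr ⟨k1, by omega⟩
        · rintro (rfl | ⟨k1, k2⟩)
          · exact ⟨hJ, rfl, by omega⟩
          · exact ⟨k1, by omega⟩
      rw [b.not_mem_cl (h2 ▸ (mem_filter.1 hJ).2), ih, e,
        card_insert_of_notMem fun h' => lt_irrefl _ (mem_filter.1 h').2.2, add_assoc]
    · have h3 : j ∈ cl r (K (τ j) ∪ A.filter fun z => pos z < pos j) :=
        not_not.1 fun h' => hJ (mem_filter.2 ⟨hj, h'⟩)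
      rw [b.mem_cl.1 (h2 ▸ h3), ih,
        filter_congr (q := fun i => τ i = τ j ∧ pos i < pos j + 1) fun y hy => ?_]
      have : pos y ≠ pos j := fun e => hJ (h.inj y (mem_filter.1 hy).1 j hj e ▸ hy)
      omega

theorem enter (b : BR r) (hK : ∀ t t', t ≤ t' → K t' ⊆ K t) (h : Ord A pos τ) {G : Finset α}
    {x : α} (hx : x ∈ G) (t : ℕ) (h0 : x ∉ cl r (K t ∪ bf A pos τ t 0)) (n : ℕ)
    (h1 : x ∈ cl r (K t ∪ bf A pos τ t n)) :
    ∃ j ∈ piv r K A pos τ, τ j = t ∧ x ∈ own r G K (piv r K A pos τ) pos τ j := by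
  induction n with
  | zero => exact absurd h1 h0
  | succ n ih =>
    by_cases h2 : x ∈ cl r (K t ∪ bf A pos τ t n)
    · exact ih h2
    rcases step h t n with ⟨-, h3⟩ | ⟨j, hj, rfl, rfl, h3, h4⟩
    · exact absurd (h3 ▸ h1) h2
    rw [h3, union_insert, h4] at h1
    rw [h4] at h2
    refine ⟨j, mem_filter.2 ⟨hj, fun h' => h2 (b.cl_sub (insert_subset h' (b.sub_cl _)) h1)⟩, rfl,
      mem_sdiff.2 ⟨mem_inter.2 ⟨hx, b.cl_sub ?_ h1⟩, fun h' => h2 (b.cl_mono (ctx_sub j) h')⟩⟩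
    exact insert_subset (b.sub_cl _ (mem_insert_self _ _))
      ((sub_ctx b hK h hj).trans (b.cl_mono (subset_insert _ _)))

omit [DecidableEq α] in
theorem exists_ord (A : Finset α) (τ : α → ℕ) (m : ℕ) (h : ∀ x ∈ A, τ x ≤ m) :
    ∃ pos, Ord A pos τ := by
  have key : ∀ i ∈ A, ∀ j ∈ A, τ j < τ i →
      (m - τ i) * Fintype.card α + (Fintype.equivFin α i : ℕ) <
        (m - τ j) * Fintype.card α + (Fintype.equivFin α j : ℕ) := by
    intro i hi j hj h'
    have h1 := h i hi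
    have h2 : (m - τ i + 1) * Fintype.card α ≤ (m - τ j) * Fintype.card α :=
      Nat.mul_le_mul_right _ (by omega)
    have h3 := (Fintype.equivFin α i).2
    rw [add_mul] at h2
    omega
  refine ⟨fun x => (m - τ x) * Fintype.card α + (Fintype.equivFin α x : ℕ), ?_, key⟩
  intro i hi j hj e
  have h1 : τ i = τ j := le_antisymm (not_lt.1 fun h' => (key i hi j hj h').ne e)
    (not_lt.1 fun h' => (key j hj i hi h').ne' e)
  rw [h1] at e
  exact (Fintype.equivFin α).injective (Fin.ext (Nat.add_left_cancel e))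

end Sched_

open Sched_ in
theorem t_Sched (b : Bas r) : StSched r := by
  intro G K Z m hK hZ hKZ hc hm
  obtain ⟨τ, hτ⟩ : ∃ τ : α → ℕ, ∀ x ∈ Z 0, ∀ t, x ∈ Z t ↔ t ≤ τ x := by
    refine ⟨fun x => Nat.findGreatest (fun t => x ∈ Z t) m, fun x hx t => ⟨fun h => ?_, fun h =>
      hZ _ _ h (Nat.findGreatest_spec (P := fun t => x ∈ Z t) (Nat.zero_le m) hx)⟩⟩
    refine Nat.le_findGreatest (not_lt.1 fun h' => ?_) h
    exact notMem_empty x (hm ▸ hZ _ _ h'.le h)
  have hlt : ∀ x ∈ G ∩ Z 0, τ x < m := fun x hx => not_le.1 fun h =>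
    notMem_empty x (hm ▸ (hτ x (mem_inter.1 hx).2 m).2 h)
  obtain ⟨pos, h⟩ := exists_ord (G ∩ Z 0) τ m fun x hx => (hlt x hx).le
  obtain ⟨n, hn⟩ : ∃ n, ∀ x, pos x < n :=
    ⟨univ.sup pos + 1, fun x => Nat.lt_succ_of_le (le_sup (mem_univ x))⟩
  have e : ∀ t x, x ∈ G ∩ Z t ↔ x ∈ G ∩ Z 0 ∧ t ≤ τ x := fun t x => by
    rw [mem_inter, mem_inter]
    exact ⟨fun h => ⟨⟨h.1, hZ _ _ (Nat.zero_le t) h.2⟩,
      (hτ x (hZ _ _ (Nat.zero_le t) h.2) t).1 h.2⟩, fun h => ⟨h.1.1, (hτ x h.1.2 t).2 h.2⟩⟩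
  have e0 : ∀ t, bf (G ∩ Z 0) pos τ t 0 = G ∩ Z (t + 1) := fun t => by
    ext x
    rw [e (t + 1), bf, mem_filter]
    exact and_congr_right fun _ => by omega
  have e1 : ∀ t, bf (G ∩ Z 0) pos τ t n = G ∩ Z t := fun t => by
    ext x
    have := hn x
    rw [e t, bf, mem_filter]
    exact and_congr_right fun _ => by omega
  refine ⟨piv r K (G ∩ Z 0) pos τ, pos, τ, (filter_subset _ _).trans inter_subset_left,
    sched b.R h, fun j hj => hlt j (mem_filter.1 hj).1, fun t _ => ?_, fun j hj x hx => ?_,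
    fun t _ x hx h0 => ?_⟩
  · have h1 := count (K := K) b.R h t n
    rw [e0, e1, filter_congr (q := fun j => τ j = t) fun y _ => and_iff_left (hn y)] at h1
    rw [h1]
    push_cast
    ring
  · have hj' := (mem_filter.1 hj).1
    obtain ⟨h1, h2⟩ := mem_sdiff.1 hx
    obtain ⟨h3, h4⟩ := mem_inter.1 h1
    refine mem_sdiff.2 ⟨hc _ (hlt j hj') ▸ b.R.cl_mono ?_ h4, fun h5 => h2 ?_⟩
    · refine insert_subset (mem_inter.1 ((e _ j).2 ⟨hj', le_rfl⟩)).2 ((ctx_sub j).trans
        (union_subset (hKZ _ (hlt j hj')) fun y hy => ?_))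
      obtain ⟨k1, k2⟩ := mem_filter.1 hy
      exact (mem_inter.1 ((e _ y).2 ⟨k1, h.time k1 hj' k2⟩)).2
    · obtain ⟨k1, k2⟩ := (e _ x).1 (mem_inter.2 ⟨h3, h5⟩)
      exact sub_ctx b.R hK h hj' (mem_union_right _ (mem_filter.2 ⟨k1, h.lt x k1 j hj' k2⟩))
  · refine enter b.R hK h (mem_inter.1 hx).1 t (by rwa [e0]) n ?_
    rw [e1]
    exact b.R.sub_cl _ (mem_union_right _ hx)

end Vale.Agent.P331.Full
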