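import Vale.Agent.P331.FSt

/-! P331: the loss telescopes. -/

namespace Vale.Agent.P331.Full

open Finset

variable {α : Type} [Fintype α] [DecidableEq α] {r : Finset α → ℕ}

namespace Tele_

theorem tel2 (d : ℕ → ℝ) (S : ℕ) :
    ∑ s ∈ range S, (d s - d (s + 2)) = d 0 + d 1 - d S - d (S + 1) := by
  induction S with
  | zero => simp
  | succ S ih => rw [sum_range_succ, ih]; ring

theorem tel1 (c : ℕ → ℝ) (S : ℕ) : ∑ s ∈ range S, (c (s - 1) - c s) = c 0 - c (S - 1) :=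
  sum_range_sub' (fun s => c (s - 1)) S

/-- The quantity that telescopes. -/
def u (r : Finset α → ℕ) (Dl Cl : ℕ → Finset α) (h H s : ℕ) : ℝ :=
  rc r (pN r Dl Cl H s) (pN r Dl Cl h s ∪ pN r Dl Cl H (s + 2))

theorem third (b : Bas r) (Dl Cl : ℕ → Finset α) (H s : ℕ) {T : Finset α}
    (h1 : pB r Dl Cl H s ⊆ T) (h2 : pN r Dl Cl H (s + 2) ⊆ T) :
    (r (pN r Dl Cl H s) : ℝ) - r T ≤ (((Dl H ∩ pN r Dl Cl H s).card : ℝ) -
      (Dl H ∩ pN r Dl Cl H (s + 2)).card) / 16384 := by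
  by_cases hs : s ≤ H + 1
  · have k := b.X.dv_le (Dl H) h1
    have e : pN r Dl Cl H s = ex r (Dl H) (pB r Dl Cl H s) := if_pos hs
    have k2 : ((Dl H ∩ pN r Dl Cl H (s + 2)).card : ℝ) ≤ (Dl H ∩ T).card :=
      Nat.cast_le.2 (card_le_card (inter_subset_inter Subset.rfl h2))
    rw [← e, dv, dv] at k
    have k3 : ((Dl H ∩ T).card : ℝ) - 16384 * (r T : ℝ) ≤
        ((Dl H ∩ pN r Dl Cl H s).card : ℝ) - 16384 * (r (pN r Dl Cl H s) : ℝ) := by
      exact_mod_cast k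
    linarith
  · rw [b.P.pN_big Dl Cl (show H + 2 ≤ s by omega), b.P.pN_big Dl Cl (show H + 2 ≤ s + 2 by omega),
      b.k.empty]
    simp

theorem second (b : Bas r) (Dl Cl : ℕ → Finset α) (H s : ℕ) {T : Finset α}
    (h1 : pN r Dl Cl H s ⊆ T) :
    rc r (pB r Dl Cl (H + 1) s) T ≤ ((Cl H ∩ pN r Dl Cl H (s - 1)).card : ℝ) -
      (Cl H ∩ pN r Dl Cl H s).card := by
  have k : Cl H ∩ pN r Dl Cl H s ⊆ Cl H ∩ pN r Dl Cl H (s - 1) :=
    inter_subset_inter Subset.rfl (b.P.pN_anti Dl Cl H (Nat.sub_le s 1))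
  rw [← Nat.cast_sub (card_le_card k), ← card_sdiff_of_subset k]
  refine (b.R.rc_le_card _ _).trans (Nat.cast_le.2 (card_le_card fun e he => ?_))
  obtain ⟨h2, h3⟩ := mem_sdiff.1 he
  rw [b.P.pB_succ] at h2
  split_ifs at h2
  · exact mem_sdiff.2 ⟨(mem_union.1 h2).resolve_left fun m => h3 (h1 m),
      fun m => h3 (h1 (mem_inter.1 m).2)⟩
  · simp at h2

theorem step (b : Bas r) (Dl Cl : ℕ → Finset α) {h H : ℕ} (hH : h ≤ H) (s : ℕ) :
    u r Dl Cl h (H + 1) s ≤ u r Dl Cl h H s + ((((Cl H ∩ pN r Dl Cl H (s - 1)).card : ℝ) -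
      (Cl H ∩ pN r Dl Cl H s).card) + (((Dl (H + 1) ∩ pN r Dl Cl (H + 1) s).card : ℝ) -
      (Dl (H + 1) ∩ pN r Dl Cl (H + 1) (s + 2)).card) / 16384) := by
  have k1 : rc r (pN r Dl Cl H s) (pN r Dl Cl h s ∪ pN r Dl Cl (H + 1) (s + 2)) ≤
      u r Dl Cl h H s :=
    b.R.rc_anti _ (union_subset_union Subset.rfl (b.P.pN_mono Dl Cl _ (Nat.le_succ H)))
  have k2 := second b Dl Cl H s (subset_union_right
    (s₁ := pN r Dl Cl h s ∪ pN r Dl Cl (H + 1) (s + 2)))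
  have k3 := third b Dl Cl (H + 1) s (subset_union_right
    (s₁ := pN r Dl Cl h s ∪ pN r Dl Cl (H + 1) (s + 2) ∪ pN r Dl Cl H s))
    ((subset_union_right.trans subset_union_left).trans subset_union_left)
  have e : pN r Dl Cl h s ∪ pN r Dl Cl (H + 1) (s + 2) ∪ pN r Dl Cl (H + 1) s =
      pN r Dl Cl (H + 1) s := union_eq_right.2 (union_subset
    (b.P.pN_mono Dl Cl _ (Nat.le_succ_of_le hH)) (b.P.pN_anti Dl Cl _ (Nat.le_add_right s 2)))
  rw [u, rc, e]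
  rw [rc] at k1 k2
  linarith

theorem sum_u (b : Bas r) (Dl Cl : ℕ → Finset α) {h H : ℕ} (hH : h ≤ H) (S : ℕ) :
    ∑ s ∈ range S, u r Dl Cl h H s ≤
      ∑ j ∈ Ico h H, (((Cl j).card : ℝ) + 2 * ((Dl (j + 1)).card : ℝ) / 16384) := by
  induction H, hH using Nat.le_induction with
  | base =>
    rw [Ico_self, sum_empty]
    refine sum_nonpos fun s _ => (b.R.rc_le_card _ _).trans (le_of_eq ?_)
    rw [sdiff_eq_empty_iff_subset.2 subset_union_left, card_empty, Nat.cast_zero]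
  | succ H hH ih =>
    refine (sum_le_sum fun s _ => step b Dl Cl hH s).trans ?_
    rw [sum_Ico_succ_top hH, sum_add_distrib, sum_add_distrib, ← sum_div,
      tel1 fun s => ((Cl H ∩ pN r Dl Cl H s).card : ℝ),
      tel2 fun s => ((Dl (H + 1) ∩ pN r Dl Cl (H + 1) s).card : ℝ)]
    have c1 : ∀ A B : Finset α, ((A ∩ B).card : ℝ) ≤ A.card := fun A B =>
      Nat.cast_le.2 (card_le_card inter_subset_left)
    have c0 : ∀ A : Finset α, (0 : ℝ) ≤ A.card := fun A => Nat.cast_nonneg _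
    linarith [c1 (Cl H) (pN r Dl Cl H 0), c1 (Dl (H + 1)) (pN r Dl Cl (H + 1) 0),
      c1 (Dl (H + 1)) (pN r Dl Cl (H + 1) 1), c0 (Cl H ∩ pN r Dl Cl H (S - 1)),
      c0 (Dl (H + 1) ∩ pN r Dl Cl (H + 1) S), c0 (Dl (H + 1) ∩ pN r Dl Cl (H + 1) (S + 1))]

end Tele_

open Tele_ in
theorem t_Tele (b : Bas r) : StTele r := by
  intro Dl Cl h H hH
  refine (sum_le_sum_of_subset_of_nonneg (range_mono (show h + 1 ≤ H + 2 by omega))
    fun s _ _ => sub_nonneg.2 (b.R.rc_anti _ (b.P.pN_anti Dl Cl h (Nat.le_add_right s 2)))).trans ?_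
  have e : ∀ s, rc r (pN r Dl Cl H (s + 2)) (pN r Dl Cl h (s + 2)) -
      rc r (pN r Dl Cl H (s + 2)) (pN r Dl Cl h s) = u r Dl Cl h H s -
      (rc r (pN r Dl Cl H s) (pN r Dl Cl h s) -
        rc r (pN r Dl Cl H (s + 2)) (pN r Dl Cl h (s + 2))) := fun s => by
    have k := b.R.rc_chain (pN r Dl Cl H (s + 2)) (pN r Dl Cl H s) (pN r Dl Cl h s)
    rw [union_eq_right.2 (b.P.pN_anti Dl Cl H (Nat.le_add_right s 2))] at k
    rw [u, k]
    ring
  have z : ∀ T, rc r ∅ T = 0 := fun T => by simp [rc]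
  simp only [e]
  rw [sum_sub_distrib, tel2 fun s => rc r (pN r Dl Cl H s) (pN r Dl Cl h s),
    b.P.pN_big Dl Cl (le_refl (H + 2)), b.P.pN_big Dl Cl (Nat.le_succ (H + 2)), z, z]
  linarith [sum_u b Dl Cl hH (H + 2), b.R.rc_nonneg (pN r Dl Cl H 0) (pN r Dl Cl h 0),
    b.R.rc_nonneg (pN r Dl Cl H 1) (pN r Dl Cl h 1)]

end Vale.Agent.P331.Full
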