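import Vale.Agent.P331.FSt

/-! P331: thinning. -/

namespace Vale.Agent.P331.Full

open Finset

variable {α : Type} [Fintype α] [DecidableEq α] {r : Finset α → ℕ}

namespace Thin_

theorem cT_congr (F : Finset α) (lev : α → ℕ) (Dc Gc : Finset α) {Rc Rc' : Finset α}
    {h : ℕ} (hR : ∀ e, lev e < h → (e ∈ Rc ↔ e ∈ Rc')) (s : ℕ) :
    cT r F lev Dc Gc Rc h s = cT r F lev Dc Gc Rc' h s := by
  unfold cT
  congr 1
  ext e
  simp only [cW, mem_filter, mem_inter]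
  constructor
  · rintro ⟨⟨⟨h1, h2⟩, h3⟩, h4⟩
    exact ⟨⟨⟨h1, (hR e h4).1 h2⟩, h3⟩, h4⟩
  · rintro ⟨⟨⟨h1, h2⟩, h3⟩, h4⟩
    exact ⟨⟨⟨h1, (hR e h4).2 h2⟩, h3⟩, h4⟩

omit [Fintype α] in
theorem agree (F : Finset α) (lev : α → ℕ) (h : ℕ) (A B : Finset α) (e : α) (he : lev e < h) :
    e ∈ (A \ sl lev F h) ∪ (B ∩ sl lev F h) ↔ e ∈ A := by
  have : e ∉ sl lev F h := by
    simp only [sl, mem_filter, not_and]
    exact fun _ => he.ne
  simp [this]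

theorem pd_nonneg : 0 ≤ pd := by unfold pd; positivity

theorem pd_le : pd ≤ 1 := by unfold pd; norm_num

theorem one (b : Bas r) (F : Finset α) (lev : α → ℕ) (Dc Gc A : Finset α) {h s : ℕ} (hs : s ≤ h) :
    pd * rc r (cY r F lev Dc Gc A h s \ Gc) (cT r F lev Dc Gc A h s) ≤
      Ex pd fun B => rc r (sl lev (cW r F lev Dc Gc ((A \ sl lev F h) ∪ (B ∩ sl lev F h)) s) h)
        (cT r F lev Dc Gc A h s) := by
  obtain ⟨Y, hY, h1, h2⟩ := b.R.basis (cY r F lev Dc Gc A h s \ Gc) (cT r F lev Dc Gc A h s)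
  have h3 : rc r (cY r F lev Dc Gc A h s \ Gc) (cT r F lev Dc Gc A h s) = Y.card := by
    rw [rc, ← h2, h1]
    push_cast
    ring
  rw [h3, ← b.E.card_inter]
  refine b.E.mono pd_nonneg pd_le fun B => ?_
  have h4 : rc r (Y ∩ B) (cT r F lev Dc Gc A h s) = (Y ∩ B).card := by
    rw [rc, b.R.ind_sub h1 (Subset.refl _) inter_subset_left]
    push_cast
    ring
  rw [← h4]
  refine b.R.rc_mono _ fun e he => ?_
  obtain ⟨e1, e2⟩ := mem_inter.1 he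
  have e3 := hY e1
  simp only [cY, sl, mem_sdiff, mem_inter, mem_filter] at e3
  obtain ⟨⟨⟨⟨⟨⟨f1, f2⟩, f3⟩, f4⟩, f5⟩, -⟩, f6⟩ := e3
  simp only [cW, sl, mem_sdiff, mem_inter, mem_filter, mem_union]
  rw [f3]
  exact ⟨⟨⟨⟨⟨f1, f2⟩, f6⟩, Or.inr ⟨e2, f1, rfl⟩⟩, hs, f4, f5⟩, rfl⟩

end Thin_

open Thin_ in
theorem t_Thin (b : Bas r) : StThin r := by
  intro F lev Dc Gc h
  rw [b.E.resample pd (sl lev F h) fun Rc => cg r F lev Dc Gc Rc h, ← b.E.mul]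
  refine b.E.mono pd_nonneg pd_le fun A => ?_
  simp only [cg]
  rw [b.E.sum, mul_sum]
  refine sum_le_sum fun s hs => ?_
  simp only [fun B => cT_congr (r := r) F lev Dc Gc (agree F lev h A B) s]
  exact one b F lev Dc Gc A (Nat.lt_succ_iff.1 (mem_range.1 hs))

end Vale.Agent.P331.Full
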