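import Vale.Agent.P331.FSt

/-! P331: the pivots and the sizes of their classes determine the classes. -/

namespace Vale.Agent.P331.Full

open Finset

variable {α : Type} [Fintype α] [DecidableEq α] {r : Finset α → ℕ}

namespace Uniq_

omit [Fintype α] in
theorem ctx_erase (K : ℕ → Finset α) {J : Finset α} (pos τ : α → ℕ) {j : α} (i : α) :
    ctx (fun t => insert j (K t)) (J.erase j) pos τ i = insert j (ctx K J pos τ i) := by
  ext x
  simp only [ctx, mem_union, mem_insert, mem_filter, mem_erase]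
  by_cases h : x = j <;> simp [h]

omit [Fintype α] in
theorem ctx_same (K : ℕ → Finset α) {J : Finset α} (pos τ : α → ℕ) {j i : α} (hj : j ∈ J)
    (h : pos j < pos i) :
    ctx (fun t => insert j (K t)) (J.erase j) pos τ i = ctx K J pos τ i := by
  rw [ctx_erase]
  exact insert_eq_of_mem (mem_union_right _ (mem_filter.2 ⟨hj, h⟩))

theorem own_same (G : Finset α) (K : ℕ → Finset α) {J : Finset α} (pos τ : α → ℕ) {j i : α}
    (hj : j ∈ J) (h : pos j < pos i) :
    own r G (fun t => insert j (K t)) (J.erase j) pos τ i = own r G K J pos τ i := by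
  rw [own, own, ctx_same K pos τ hj h]

theorem ctx_sub {K : ℕ → Finset α} {J : Finset α} {pos τ : α → ℕ}
    (hK : ∀ t t', t ≤ t' → K t' ⊆ K t) (h : Sched r K J pos τ) {i j : α} (hi : i ∈ J) (hj : j ∈ J)
    (hij : pos i < pos j) : insert i (ctx K J pos τ i) ⊆ ctx K J pos τ j := by
  refine insert_subset (mem_union_right _ (mem_filter.2 ⟨hi, hij⟩)) (union_subset_union
    (hK _ _ (h.time i hi j hj hij)) fun x hx => ?_)
  exact mem_filter.2 ⟨(mem_filter.1 hx).1, (mem_filter.1 hx).2.trans hij⟩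

theorem sched_erase (b : Bas r) {K : ℕ → Finset α} {J : Finset α} {pos τ : α → ℕ}
    (hK : ∀ t t', t ≤ t' → K t' ⊆ K t) (h : Sched r K J pos τ) {j : α} (hj : j ∈ J) :
    Sched r (fun t => insert j (K t)) (J.erase j) pos τ := by
  refine ⟨fun x hx y hy => h.inj x (mem_of_mem_erase hx) y (mem_of_mem_erase hy),
    fun x hx y hy => h.time x (mem_of_mem_erase hx) y (mem_of_mem_erase hy), fun i hi => ?_⟩
  obtain ⟨hij, hi⟩ := mem_erase.1 hi
  rcases lt_trichotomy (pos j) (pos i) with k | k | k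
  · rw [ctx_same K pos τ hj k]
    exact h.new i hi
  · exact absurd (h.inj j hj i hi k).symm hij
  · rw [ctx_erase]
    exact fun hx => h.new j hj (b.R.cl_mono (ctx_sub hK h hi hj k) (b.R.exch hx (h.new i hi)))

theorem step (b : Bas r) {G J : Finset α} {K : ℕ → Finset α} {pos τ pos' τ' : α → ℕ}
    (hK : ∀ t t', t ≤ t' → K t' ⊆ K t) (h : Sched r K J pos τ) (h' : Sched r K J pos' τ')
    (hc : ∀ j ∈ J, (own r G K J pos τ j).card = (own r G K J pos' τ' j).card) {j : α}
    (hj : j ∈ J) (hmin : ∀ i ∈ J, pos j ≤ pos i) (hτ : ∀ i ∈ J, τ' i ≤ τ j) :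
    own r G K J pos τ j = own r G K J pos' τ' j ∧ ∀ i ∈ J.erase j,
      own r G (fun t => insert j (K t)) (J.erase j) pos τ i = own r G K J pos τ i ∧
      own r G (fun t => insert j (K t)) (J.erase j) pos' τ' i = own r G K J pos' τ' i := by
  have hsub : ∀ i ∈ J, ctx K J pos τ j ⊆ ctx K J pos' τ' i := fun i hi =>
    union_subset ((hK _ _ (hτ i hi)).trans subset_union_left) fun x hx =>
      absurd (mem_filter.1 hx).2 (not_lt.2 (hmin x (mem_filter.1 hx).1))
  have e : own r G K J pos τ j = own r G K J pos' τ' j := by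
    refine eq_of_subset_of_card_le (fun x hx => ?_) (hc j hj).ge
    simp only [own, mem_sdiff, mem_inter] at hx ⊢
    refine ⟨⟨hx.1.1, b.R.cl_mono (insert_subset_insert _ (hsub j hj)) hx.1.2⟩, fun k => ?_⟩
    exact h'.new j hj (b.R.cl_sub (insert_subset k ((hsub j hj).trans (b.R.sub_cl _)))
      (b.R.exch hx.1.2 hx.2))
  refine ⟨e, fun i hi => ?_⟩
  obtain ⟨hij, hi⟩ := mem_erase.1 hi
  refine ⟨own_same G K pos τ hj (lt_of_le_of_ne (hmin i hi) fun k =>
    hij (h.inj j hj i hi k).symm), ?_⟩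
  rcases lt_trichotomy (pos' j) (pos' i) with k | k | k
  · exact own_same G K pos' τ' hj k
  · exact absurd (h'.inj j hj i hi k).symm hij
  have k1 := ctx_sub hK h' hi hj k
  have k2 : j ∉ cl r (insert i (ctx K J pos' τ' i)) := fun hx => h'.new j hj (b.R.cl_mono k1 hx)
  rw [own, ctx_erase, own]
  ext x
  simp only [mem_sdiff, mem_inter]
  constructor
  · rintro ⟨⟨hG, h1⟩, h2⟩
    refine ⟨⟨hG, ?_⟩, fun h3 => h2 (b.R.cl_mono (subset_insert _ _) h3)⟩
    by_contra h3
    rw [insert_comm] at h1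
    have h4 := b.R.exch h1 h3
    have h5 : x ∈ own r G K J pos' τ' j := by
      simp only [own, mem_sdiff, mem_inter]
      refine ⟨⟨hG, b.R.cl_mono (insert_subset_insert _ k1) h1⟩, fun h5 => ?_⟩
      exact h'.new j hj (b.R.cl_sub (insert_subset h5 (k1.trans (b.R.sub_cl _))) h4)
    rw [← e] at h5
    simp only [own, mem_sdiff, mem_inter] at h5
    exact h2 (b.R.cl_mono (insert_subset_insert _ (hsub i hi)) h5.1.2)
  · rintro ⟨⟨hG, h1⟩, h2⟩
    refine ⟨⟨hG, b.R.cl_mono (insert_subset_insert _ (subset_insert _ _)) h1⟩, fun h3 => ?_⟩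
    exact k2 (b.R.cl_sub (insert_subset h1 ((subset_insert _ _).trans (b.R.sub_cl _)))
      (b.R.exch h3 h2))

theorem time_min {K : ℕ → Finset α} {J : Finset α} {pos τ : α → ℕ} (h : Sched r K J pos τ)
    {j : α} (hj : j ∈ J) (hmin : ∀ i ∈ J, pos j ≤ pos i) : ∀ i ∈ J, τ i ≤ τ j := by
  intro i hi
  rcases (hmin i hi).lt_or_eq with k | k
  · exact h.time j hj i hi k
  · rw [h.inj j hj i hi k]

end Uniq_

theorem t_Uniq (b : Bas r) : StUniq r := by
  intro G J
  induction J using Finset.strongInduction with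
  | H J ih =>
  have key : ∀ (K : ℕ → Finset α) (pos τ pos' τ' : α → ℕ), (∀ t t', t ≤ t' → K t' ⊆ K t) →
      Sched r K J pos τ → Sched r K J pos' τ' →
      (∀ j ∈ J, (own r G K J pos τ j).card = (own r G K J pos' τ' j).card) → ∀ j ∈ J,
      (∀ i ∈ J, pos j ≤ pos i) → (∀ i ∈ J, τ' i ≤ τ j) →
      ∀ i ∈ J, own r G K J pos τ i = own r G K J pos' τ' i := by
    intro K pos τ pos' τ' hK h h' hc j hj hmin hτ i hi
    obtain ⟨e1, e2⟩ := Uniq_.step b hK h h' hc hj hmin hτ
    by_cases hij : i = j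
    · exact hij ▸ e1
    have hi' : i ∈ J.erase j := mem_erase.2 ⟨hij, hi⟩
    rw [← (e2 i hi').1, ← (e2 i hi').2]
    refine ih _ (erase_ssubset hj) _ pos τ pos' τ'
      (fun t t' ht => insert_subset_insert _ (hK t t' ht)) (Uniq_.sched_erase b hK h hj)
      (Uniq_.sched_erase b hK h' hj) (fun x hx => ?_) i hi'
    rw [(e2 x hx).1, (e2 x hx).2]
    exact hc x (mem_of_mem_erase hx)
  intro K pos τ pos' τ' hK h h' hc i hi
  obtain ⟨j, hj, hmin⟩ := exists_min_image J pos ⟨i, hi⟩
  obtain ⟨j', hj', hmin'⟩ := exists_min_image J pos' ⟨i, hi⟩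
  rcases le_total (τ' j') (τ j) with k | k
  · exact key K pos τ pos' τ' hK h h' hc j hj hmin
      (fun x hx => (Uniq_.time_min h' hj' hmin' x hx).trans k) i hi
  · exact (key K pos' τ' pos τ hK h' h (fun x hx => (hc x hx).symm) j' hj' hmin'
      (fun x hx => (Uniq_.time_min h hj hmin x hx).trans k) i hi).symm

end Vale.Agent.P331.Full
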