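import Vale.Agent.P331.FSt

/-! P331: many elements are safe. -/

namespace Vale.Agent.P331.Full

open Finset

variable {α : Type} [Fintype α] [DecidableEq α] {r : Finset α → ℕ}

namespace Ylow_

/-- The expectation over guards and real elements. -/
noncomputable def E2 (f : Finset α → Finset α → ℝ) : ℝ := Ex pc fun G => Ex pd fun R => f G R

/-- The indicator of membership. -/
def io (e : α) (A : Finset α) : ℝ := if e ∈ A then 1 else 0

theorem e2_mono (E : BE α) {f g : Finset α → Finset α → ℝ} (h : ∀ G R, f G R ≤ g G R) :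
    E2 f ≤ E2 g :=
  E.mono (by unfold pc; norm_num) (by unfold pc; norm_num) fun G =>
    E.mono (by unfold pd; norm_num) (by unfold pd; norm_num) fun R => h G R

theorem e2_sum (E : BE α) {ι : Type} (s : Finset ι) (f : ι → Finset α → Finset α → ℝ) :
    E2 (fun G R => ∑ i ∈ s, f i G R) = ∑ i ∈ s, E2 (f i) := by
  unfold E2
  simp only [E.sum]

theorem e2_const (E : BE α) (c : ℝ) : E2 (fun _ _ : Finset α => c) = c := by
  unfold E2
  simp only [E.const]

theorem e2_sub (E : BE α) (c : ℝ) (f : Finset α → Finset α → ℝ) :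
    E2 (fun G R => c - f G R) = c - E2 f := by
  unfold E2
  simp only [E.sub, E.const]

omit [Fintype α] in
theorem io_low (e : α) {A B : Finset α} (Q : Finset α) :
    io e A - io e B - io e (Q \ B) ≤ io e ((A \ B) \ Q) := by
  unfold io
  by_cases a : e ∈ A <;> by_cases b : e ∈ B <;> by_cases q : e ∈ Q <;> simp [a, b, q]

omit [Fintype α] in
theorem io_up (e : α) {A B Q : Finset α} (h : B ⊆ A) (h' : B ⊆ Q) :
    io e (A \ Q) ≤ io e A - io e B := by
  unfold io
  by_cases b : e ∈ B
  · simp [b, h b, h' b]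
  · by_cases a : e ∈ A <;> by_cases q : e ∈ Q <;> simp [a, b, q]

omit [Fintype α] in
theorem io_mem (e : α) (A : Finset α) : 0 ≤ io e A ∧ io e A ≤ 1 := by
  unfold io
  split_ifs <;> norm_num

omit [Fintype α] in
theorem card_io (S A : Finset α) : ((S ∩ A).card : ℝ) = ∑ e ∈ S, io e A := by
  unfold io
  rw [sum_boole, filter_mem_eq_inter]

theorem caught (b : Bas r) (hS : StSafe r) (F : Finset α) (lev : α → ℕ) (D : Finset α) (e : α)
    (h : ℕ) : E2 (fun G R => ∑ s ∈ range (h + 1),
      io e (cQ r F lev D G R h s \ cN r F lev D G h (s + 1))) ≤ 1 / 128 := by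
  rw [e2_sum b.E]
  have h1 : ∀ s ∈ range (h + 1),
      E2 (fun G R => io e (cQ r F lev D G R h s \ cN r F lev D G h (s + 1))) ≤
      1 / 128 * E2 fun G R => io e (cN r F lev D G h (s + 1) \ cQ r F lev D G R h s) :=
    fun s hs => hS F lev D e h s (Nat.le_of_lt_succ (mem_range.1 hs))
  refine (sum_le_sum h1).trans ?_
  rw [← mul_sum, ← e2_sum b.E]
  refine mul_le_of_le_one_right (by norm_num)
    ((e2_mono b.E (g := fun _ _ => 1) fun G R => ?_).trans (e2_const b.E 1).le)
  have h2 : ∀ s ∈ range (h + 1), io e (cN r F lev D G h (s + 1) \ cQ r F lev D G R h s) ≤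
      io e (cN r F lev D G h (s + 1)) - io e (cN r F lev D G h (s + 1 + 1)) := fun s _ =>
    io_up e (b.P.pN_anti _ _ _ (Nat.le_succ _)) (b.P.pN_sub_pQ _ _ _ _ _)
  refine (sum_le_sum h2).trans ?_
  rw [sum_range_sub' fun s => io e (cN r F lev D G h (s + 1))]
  linarith [(io_mem e (cN r F lev D G h (0 + 1))).2, (io_mem e (cN r F lev D G h (h + 1 + 1))).1]

theorem one_el (b : Bas r) (hS : StSafe r) (F : Finset α) (lev : α → ℕ) (D : Finset α) (e : α)
    (h : ℕ) : 1 - io e (ex r (sD F lev D h) ∅) - 1 / 128 ≤ E2 fun G R => ∑ s ∈ range (h + 1),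
      io e ((cN r F lev D G h s \ cN r F lev D G h (s + 1)) \ cQ r F lev D G R h s) := by
  refine (sub_le_sub_left (caught b hS F lev D e h) _).trans ?_
  rw [← e2_sub b.E]
  refine e2_mono b.E fun G R => le_trans (le_of_eq ?_) (sum_le_sum fun s _ => io_low e _)
  rw [sum_sub_distrib, sum_range_sub' fun s => io e (cN r F lev D G h s)]
  unfold cN
  rw [b.P.pN_zero, b.P.pN_act]
  simp [io]

theorem cy_eq (F : Finset α) (lev : α → ℕ) (D G R : Finset α) (h : ℕ) :
    cy r F lev D G R h = ∑ e ∈ sl lev (F \ D) h, ∑ s ∈ range (h + 1),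
      io e ((cN r F lev D G h s \ cN r F lev D G h (s + 1)) \ cQ r F lev D G R h s) := by
  rw [sum_comm]
  refine sum_congr rfl fun s _ => ?_
  rw [← card_io, cY, inter_sdiff_assoc, inter_sdiff_assoc]

theorem fixed (b : Bas r) (hS : StSafe r) (F : Finset α) (lev : α → ℕ) (I : Finset α) (h : ℕ)
    (hI : I ⊆ F) (hr : r I = I.card) (D : Finset α) :
    ((sl lev I h \ D).card : ℝ) - ((sl lev F h).card : ℝ) / 120 ≤
      E2 fun G R => cy r F lev D G R h := by
  simp only [cy_eq]
  rw [e2_sum b.E]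
  refine le_trans ?_ (sum_le_sum fun e _ => one_el b hS F lev D e h)
  generalize hX : ex r (sD F lev D h) ∅ = X
  have s1 : sl lev I h \ D ⊆ sl lev (F \ D) h := fun e he => by
    simp only [sl, mem_sdiff, mem_filter] at he ⊢
    exact ⟨⟨hI he.1.1, he.2⟩, he.1.2⟩
  have s2 : ((sl lev (F \ D) h).card : ℝ) ≤ (sl lev F h).card := by
    exact_mod_cast card_le_card (filter_subset_filter _ sdiff_subset)
  have s3 : (sD F lev D h).card ≤ (sl lev F h).card :=
    card_le_card (filter_subset_filter _ inter_subset_left)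
  have s4 : r ((sl lev I h \ D) ∩ X) = ((sl lev I h \ D) ∩ X).card := by
    have := b.R.ind_sub (T := ∅) (T' := ∅) (Y := I) (Z := (sl lev I h \ D) ∩ X)
      (by rw [empty_union, b.k.empty, zero_add, hr]) (Subset.refl _)
      (inter_subset_left.trans (sdiff_subset.trans (filter_subset _ _)))
    rwa [empty_union, b.k.empty, zero_add] at this
  have s5 : 16384 * ((sl lev I h \ D) ∩ X).card ≤ (sl lev F h).card := by
    have a1 := b.X.r_ex_empty (sD F lev D h)
    have a2 : r ((sl lev I h \ D) ∩ X) ≤ r X := b.k.mono inter_subset_right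
    rw [hX] at a1
    omega
  have s6 : 16384 * ∑ e ∈ sl lev I h \ D, io e X ≤ (sl lev F h).card := by
    rw [← card_io]
    exact_mod_cast s5
  have s7 : ∑ e ∈ sl lev I h \ D, (1 - io e X) ≤ ∑ e ∈ sl lev (F \ D) h, (1 - io e X) :=
    sum_le_sum_of_subset_of_nonneg s1 fun e _ _ => sub_nonneg.2 (io_mem e X).2
  rw [sum_sub_distrib, sum_const, nsmul_eq_mul, mul_one] at s7
  rw [sum_sub_distrib, sum_const, nsmul_eq_mul]
  have s8 : (0 : ℝ) ≤ (sl lev F h).card := Nat.cast_nonneg _
  linarith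

end Ylow_

theorem t_Ylow (b : Bas r) (hS : StSafe r) : StYlow r := by
  intro F lev I h hI hr
  refine le_trans (le_of_eq ?_) (b.E.mono (p := 1 / 2) (by norm_num) (by norm_num)
    fun D => Ylow_.fixed b hS F lev I h hI hr D)
  rw [b.E.sub, b.E.card_sdiff, b.E.const]
  ring

end Vale.Agent.P331.Full
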