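import Vale.Agent.P331.FSt

/-! P331: the safe elements have large rank. -/

namespace Vale.Agent.P331.Full

open Finset

variable {α : Type} [Fintype α] [DecidableEq α] {r : Finset α → ℕ}

namespace Yup_

theorem two_sum (g : ℕ → ℝ) (n : ℕ) :
    ∑ s ∈ range (2 * n), g s = ∑ i ∈ range n, g (2 * i + 0) + ∑ i ∈ range n, g (2 * i + 1) := by
  induction n with
  | zero => simp
  | succ n ih =>
    rw [show 2 * (n + 1) = 2 * n + 1 + 1 by ring, sum_range_succ, sum_range_succ, ih,
      sum_range_succ, sum_range_succ, add_zero]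
    ring

theorem reindex (f : ℕ → ℝ) (h : ℕ) : ∑ s ∈ range (h + 1), f s =
    ∑ i ∈ range (h + 1), (if 2 * i + 0 ≤ h then f (2 * i + 0) else 0) +
      ∑ i ∈ range (h + 1), (if 2 * i + 1 ≤ h then f (2 * i + 1) else 0) := by
  rw [← two_sum (fun s => if s ≤ h then f s else 0), ← sum_filter]
  refine sum_congr ?_ fun _ _ => rfl
  ext s
  simp only [mem_range, mem_filter]
  omega

variable (F : Finset α) (lev : α → ℕ) (h : ℕ) (A B Gc Rc : Finset α)

/-- The density coins, resampled on level `h`. -/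
def mix : Finset α := (A \ sl lev F h) ∪ (B ∩ sl lev F h)

variable {h}

omit [Fintype α] in
theorem sD_lt {j : ℕ} (hj : j < h) : sD F lev (mix F lev h A B) j = sD F lev A j := by
  ext e
  simp only [sD, mix, sl, mem_filter, mem_inter, mem_union, mem_sdiff]
  constructor
  · rintro ⟨⟨h1, h2 | h2⟩, h3⟩
    · exact ⟨⟨h1, h2.1⟩, h3⟩
    · omega
  · rintro ⟨⟨h1, h2⟩, h3⟩
    exact ⟨⟨h1, Or.inl ⟨h2, fun h4 => by omega⟩⟩, h3⟩

omit [Fintype α] in
theorem sl_lt {j : ℕ} (hj : j < h) {e : α} (he : lev e = j) : e ∈ mix F lev h A B ↔ e ∈ A := by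
  simp only [mix, sl, mem_filter, mem_inter, mem_union, mem_sdiff]
  constructor
  · rintro (h2 | h2)
    · exact h2.1
    · omega
  · exact fun h2 => Or.inl ⟨h2, fun h4 => by omega⟩

omit [Fintype α] in
theorem sC_lt {j : ℕ} (hj : j < h) : sC F lev (mix F lev h A B) Gc j = sC F lev A Gc j := by
  ext e
  simp only [sC, sl, mem_filter, mem_inter, mem_sdiff]
  exact and_congr_left fun he => by rw [sl_lt F lev A B hj he]

omit [Fintype α] in
theorem sR_lt {j : ℕ} (hj : j < h) :
    sR F lev (mix F lev h A B) Gc Rc j = sR F lev A Gc Rc j := by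
  ext e
  simp only [sR, sl, mem_filter, mem_inter, mem_sdiff]
  exact and_congr_left fun he => by rw [sl_lt F lev A B hj he]

variable (h)

omit [Fintype α] in
theorem sD_eq : sD F lev (mix F lev h A B) h = sl lev F h ∩ B := by
  ext e
  simp only [sD, mix, sl, mem_filter, mem_inter, mem_union, mem_sdiff]
  tauto

omit [Fintype α] in
theorem sl_eq : sl lev (F \ mix F lev h A B) h = sl lev F h \ B := by
  ext e
  simp only [mix, sl, mem_filter, mem_inter, mem_union, mem_sdiff]
  tauto

/-- The comparison set before the expansion of level `h`. -/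
def Kq (r : Finset α → ℕ) (s : ℕ) : Finset α :=
  qB r (sD F lev A) s (qU r (sD F lev A) (sC F lev A Gc) (sR F lev A Gc Rc) s) h

theorem cQ_eq (b : Bas r) (s : ℕ) : cQ r F lev (mix F lev h A B) Gc Rc h s =
    ex r (sl lev F h ∩ B) (Kq F lev h A Gc Rc r s) := by
  rw [cQ, pQ, qN, sD_eq, Kq]
  congr 1
  refine b.P.qB_congr s (fun j hj => sD_lt F lev A B hj) fun j hj => ?_
  have hp := b.P.pN_congr (Dl := sD F lev (mix F lev h A B)) (Cl := sC F lev (mix F lev h A B) Gc)
    (Dl' := sD F lev A) (Cl' := sC F lev A Gc) (h := j)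
    (fun i hi => sD_lt F lev A B (hi.trans_lt hj)) fun i hi => sC_lt F lev A B Gc (hi.trans hj)
  simp only [qU, win, hp, sC_lt F lev A B Gc hj, sR_lt F lev A B Gc Rc hj]

theorem Kq_anti (b : Bas r) (ε t t' : ℕ) (ht : t ≤ t') :
    Kq F lev h A Gc Rc r (2 * t' + ε) ⊆ Kq F lev h A Gc Rc r (2 * t + ε) := by
  rcases ht.eq_or_lt with rfl | ht
  · exact Subset.rfl
  · exact ((b.P.qB_sub_pB _ _ _ _ _).trans (b.P.pB_anti _ _ h (by omega))).trans
      (b.P.pB_sub_qB _ _ _ _ _)

theorem par (b : Bas r) (hH : StHold r) (ε : ℕ) :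
    Ex (1 / 2) (fun B => ∑ i ∈ range (h + 1), if 2 * i + ε ≤ h then
        ((cY r F lev (mix F lev h A B) Gc Rc h (2 * i + ε)).card : ℝ) else 0) ≤
      50000 * Ex (1 / 2) (fun B => ∑ i ∈ range (h + 1), if 2 * i + ε ≤ h then
        rc r (cY r F lev (mix F lev h A B) Gc Rc h (2 * i + ε))
          (cQ r F lev (mix F lev h A B) Gc Rc h (2 * i + ε)) else 0) +
        ((sl lev F h).card : ℝ) / 100 := by
  have key := hH (sl lev F h) (fun i => Kq F lev h A Gc Rc r (2 * i + ε))
    (fun B i => if 2 * i + ε ≤ h then cY r F lev (mix F lev h A B) Gc Rc h (2 * i + ε) else ∅)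
    (h + 1) (Kq_anti F lev h A Gc Rc b ε) (fun B i => ?_) fun B i => ?_
  · refine le_trans (le_of_eq ?_) (key.trans (le_of_eq ?_))
    · refine congrArg _ (funext fun B => sum_congr rfl fun i _ => ?_)
      split_ifs <;> simp
    · refine congrArg (fun t => 50000 * Ex (1 / 2) t + _) (funext fun B =>
        sum_congr rfl fun i _ => ?_)
      split_ifs
      · rw [cQ_eq F lev h A B Gc Rc b]
      · simp [rc]
  · split_ifs
    · rw [← cQ_eq F lev h A B Gc Rc b, ← sl_eq F lev h A B, cY]
      exact sdiff_subset_sdiff (sdiff_subset.trans inter_subset_left) Subset.rfl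
    · exact empty_subset _
  · split_ifs
    · rw [← cQ_eq F lev h A B Gc Rc b, cY]
      refine (sdiff_subset.trans (sdiff_subset.trans inter_subset_right)).trans ?_
      rw [show 2 * (i + 1) + ε = 2 * i + ε + 2 by ring]
      exact b.P.pN_sub_pQ _ _ _ _ _
    · exact empty_subset _

theorem inner (b : Bas r) (hH : StHold r) :
    Ex (1 / 2) (fun B => cy r F lev (mix F lev h A B) Gc Rc h) ≤
      50000 * Ex (1 / 2) (fun B => crho r F lev (mix F lev h A B) Gc Rc h) +
        ((sl lev F h).card : ℝ) / 50 := by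
  have h0 := par F lev h A Gc Rc b hH 0
  have h1 := par F lev h A Gc Rc b hH 1
  have e0 := fun B => reindex (fun s => ((cY r F lev (mix F lev h A B) Gc Rc h s).card : ℝ)) h
  have e1 := fun B => reindex (fun s => rc r (cY r F lev (mix F lev h A B) Gc Rc h s)
    (cQ r F lev (mix F lev h A B) Gc Rc h s)) h
  simp only [cy, crho]
  rw [funext e0, funext e1, b.E.add, b.E.add]
  linarith

theorem lift (b : Bas r) {p : ℝ} (h0 : 0 ≤ p) (h1 : p ≤ 1) {f g : Finset α → ℝ} {c : ℝ}
    (h : ∀ A, f A ≤ 50000 * g A + c) : Ex p f ≤ 50000 * Ex p g + c := by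
  have := b.E.mono h0 h1 h
  rwa [b.E.add, b.E.mul, b.E.const] at this

theorem swap (b : Bas r) (f : Finset α → Finset α → Finset α → ℝ) :
    E3 f = Ex pc fun Gc => Ex pd fun Rc => Ex (1 / 2) fun Dc => f Dc Gc Rc := by
  rw [E3, b.E.comm]
  congr 1
  funext Gc
  rw [b.E.comm]

end Yup_

open Yup_ in
theorem t_Yup (b : Bas r) (hH : StHold r) : StYup r := by
  intro F lev h
  rw [swap b, swap b]
  refine lift b (by norm_num [pc]) (by norm_num [pc]) fun Gc =>
    lift b (by norm_num [pd]) (by norm_num [pd]) fun Rc => ?_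
  rw [b.E.resample _ (sl lev F h), b.E.resample _ (sl lev F h) fun Dc => crho r F lev Dc Gc Rc h]
  exact lift b (by norm_num) (by norm_num) fun A => inner F lev h A Gc Rc b hH

end Vale.Agent.P331.Full
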